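import Vale.Agent.Lib.P062.Defs

/-!
Statement of a partial result: Maker opens at the origin and wins against every first reply of
Breaker other than the four cells that share an edge with the origin.
-/

namespace Vale.Agent.Lib.P062

/-- A strategy `σ` for Maker that opens at the origin, whose claims are legal as long as Breaker's
are, and that wins after finitely many turns against every legal sequence of Breaker claims whose
first claim `b 0 = (x, y)` has `|x| + |y| ≥ 2` (`natAbs` is the absolute value). The only first replies
not covered are the four cells that share an edge with the origin. -/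
def MakerWinsAgainstNonAdjacentReplies : Prop :=
  ∃ σ : List Cell → Cell, σ [] = (0, 0) ∧
    (∀ (b : ℕ → Cell) (n : ℕ), (∀ k < n, BreakerLegalAt σ b k) → MakerLegalAt σ b n) ∧
    (∀ b : ℕ → Cell, (∀ n, BreakerLegalAt σ b n) → 2 ≤ (b 0).1.natAbs + (b 0).2.natAbs →
      ∃ n, OwnsCopy {c | ∃ k ≤ n, c = makerCell σ b k})

end Vale.Agent.Lib.P062
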