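import Vale.Agent.Lib.P062.Far
import Vale.Agent.Lib.P062.AdjDefs

/-!
Covering of the replies that do not share an edge with the origin.
-/

namespace Vale.Agent.Lib.P062

/-- The window bit is at `ℓ¹` distance at least two from the center. -/
def adjFarBit (b : ℕ) : Bool :=
  2 ≤ (if b % 15 ≤ 7 then 7 - b % 15 else b % 15 - 7) + (if b / 15 ≤ 7 then 7 - b / 15 else b / 15 - 7)

theorem adjFarBit_of_cellOf {b : ℕ} (hb : b < 225)
    (h : 2 ≤ (cellOf b).1.natAbs + (cellOf b).2.natAbs) : adjFarBit b = true := by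
  have h1 : b % 15 < 15 := Nat.mod_lt _ (by norm_num)
  have h2 : b / 15 < 15 := by omega
  simp only [cellOf] at h
  simp only [adjFarBit, decide_eq_true_eq]
  split_ifs <;> omega

/-- The covering check for the replies that do not share an edge with the origin. -/
def coverAdjOK (classes : List (ℕ × ℕ)) : Bool :=
  classes ≠ [] ∧ (List.range 225).all (fun b => !adjFarBit b ||
    classes.any (fun c => (List.range 8).any (fun o =>
      let b' := gbit o b; !(c.2.testBit b') || b' == c.1)))

theorem forces_adj (classes : List (ℕ × ℕ))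
    (hp : ∀ c ∈ classes, ∃ d, ProvedIn d (1 <<< centerBit) (1 <<< c.1) c.2)
    (hr : ∀ c ∈ classes, c.1 < 225)
    (hcov : coverAdjOK classes = true) :
    ∃ D, ∀ r : Cell, 2 ≤ r.1.natAbs + r.2.natAbs → r ≠ (0, 0) → ForcesIn D {(0, 0)} {r} := by
  obtain ⟨D, hD⟩ := exists_uniform (P := fun d (c : ℕ × ℕ) =>
    ProvedIn d (1 <<< centerBit) (1 <<< c.1) c.2) (fun h hd => h.mono hd) classes hp
  simp only [coverAdjOK, decide_eq_true_eq, List.all_eq_true, List.mem_range,
    Bool.or_eq_true, beq_iff_eq, List.any_eq_true, Bool.not_eq_true'] at hcov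
  obtain ⟨hne, hcov⟩ := hcov
  refine ⟨D, ?_⟩
  intro r hfar hr0
  have hex : ∃ c ∈ classes, ∃ o, (r ∉ (toF c.2).image (symOf o).inv.act) ∨
      r = (symOf o).inv.act (cellOf c.1) := by
    by_cases hwin : ∃ b, b < 225 ∧ cellOf b = r
    · obtain ⟨b, hb, rfl⟩ := hwin
      rcases hcov b hb with h | ⟨c, hc, o, _, ho⟩
      · rw [adjFarBit_of_cellOf hb hfar] at h
        exact absurd h (by simp)
      · refine ⟨c, hc, o, ?_⟩
        rcases ho with ho | ho
        · left
          intro hmem
          obtain ⟨x, hx, hxe⟩ := Finset.mem_image.mp hmem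
          have h3 : x = cellOf (gbit o b) := by
            rw [cellOf_gbit hb, ← hxe, Sym.act_inv]
          rw [h3, cellOf_mem_toF (gbit_lt hb), ho] at hx
          simp at hx
        · right
          rw [← ho, cellOf_gbit hb, Sym.inv_act]
    · obtain ⟨c, hc⟩ := List.exists_mem_of_ne_nil classes hne
      refine ⟨c, hc, 0, Or.inl ?_⟩
      intro hmem
      obtain ⟨x, hx, hxe⟩ := Finset.mem_image.mp hmem
      obtain ⟨b, hb, _, hbe⟩ := mem_toF.mp hx
      apply hwin
      refine ⟨b, hb, ?_⟩
      have hid : (symOf 0).inv.act x = x := by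
        simp [Sym.inv, symOf, Sym.act, orient]
      rw [← hxe, hid, hbe]
  obtain ⟨c, hc, o, ho⟩ := hex
  have hmask := hD c hc
  set g := (symOf o).inv with hg
  rcases ho with ho | ho
  · have h1 := hmask {g.inv.act r} (by
      intro x hx hxZ
      rw [Finset.mem_singleton] at hx
      apply ho
      refine Finset.mem_image.mpr ⟨x, hxZ, ?_⟩
      rw [hx, Sym.act_inv])
    have h2 := ForcesIn.sym g h1
    rw [toF_center, Finset.image_singleton, sym_center] at h2
    refine h2.anti_B ?_
    intro y hy
    rw [Finset.mem_singleton] at hy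
    rw [hy]
    refine Finset.mem_image.mpr ⟨g.inv.act r, ?_, g.act_inv r⟩
    exact Finset.mem_union_right _ (Finset.mem_singleton_self _)
  · have h1 := hmask ∅ (by simp)
    have h2 := ForcesIn.sym g h1
    rw [toF_center, Finset.image_singleton, sym_center] at h2
    refine h2.anti_B ?_
    intro y hy
    rw [Finset.mem_singleton] at hy
    rw [hy, ho]
    refine Finset.mem_image.mpr ⟨cellOf c.1, ?_, rfl⟩
    apply Finset.mem_union_left
    rw [cellOf_mem_toF (hr c hc), Nat.one_shiftLeft, Nat.testBit_two_pow]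
    simp

/-- The partial result from certified classes. -/
theorem adjWins_of_classes (classes : List (ℕ × ℕ))
    (hp : ∀ c ∈ classes, ∃ d, ProvedIn d (1 <<< centerBit) (1 <<< c.1) c.2)
    (hr : ∀ c ∈ classes, c.1 < 225)
    (hcov : coverAdjOK classes = true) : MakerWinsAgainstNonAdjacentReplies := by
  obtain ⟨D, hD⟩ := forces_adj classes hp hr hcov
  exact ⟨farStrategy, far_strategy_spec (fun r => 2 ≤ r.1.natAbs + r.2.natAbs) D hD⟩

end Vale.Agent.Lib.P062
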