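import Mathlib.Data.Finset.Basic
import Mathlib.Data.Set.Basic
import Mathlib.Algebra.Group.Prod
import Mathlib.Algebra.Ring.Int.Defs

/-!
# The Snaky achievement game on the infinite board

Definitions of the allowed copies of Snaky and of a winning strategy for Maker.
-/

namespace Vale.Agent.Lib.P062

/-- A cell of the board, indexed by its lower left corner. -/
abbrev Cell := ℤ × ℤ

/-- The hexomino Snaky. -/
def snaky : List Cell := [(0, 0), (1, 0), (2, 0), (3, 0), (3, 1), (4, 1)]

/-- The action of a signed permutation matrix: the matrix is `diag sx sy` when `swap` is false and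
the antidiagonal matrix with entries `sx`, `sy` when `swap` is true. With `sx, sy = ±1` these are the
eight signed permutation matrices. -/
def orient (swap : Bool) (sx sy : ℤ) (p : Cell) : Cell :=
  if swap then (sx * p.2, sy * p.1) else (sx * p.1, sy * p.2)

/-- The set `A` contains every cell of some allowed copy `t + R(S)` of Snaky. -/
def OwnsCopy (A : Set Cell) : Prop :=
  ∃ (t : Cell) (swap : Bool) (sx sy : ℤ), (sx = 1 ∨ sx = -1) ∧ (sy = 1 ∨ sy = -1) ∧
    ∀ p ∈ snaky, t + orient swap sx sy p ∈ A

/-- The cell claimed by Maker on its turn number `n` (counting from `0`), when Maker follows the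
strategy `σ` (a function of the list of Breaker's claims so far) and Breaker claims `b 0, b 1, ...`. -/
def makerCell (σ : List Cell → Cell) (b : ℕ → Cell) (n : ℕ) : Cell :=
  σ ((List.range n).map b)

/-- Maker's claim on turn `n` is a previously unclaimed cell. -/
def MakerLegalAt (σ : List Cell → Cell) (b : ℕ → Cell) (n : ℕ) : Prop :=
  (∀ k < n, makerCell σ b n ≠ makerCell σ b k) ∧ (∀ k < n, makerCell σ b n ≠ b k)

/-- Breaker's claim on turn `n` (made after Maker's claim of turn `n`) is a previously unclaimed
cell. -/
def BreakerLegalAt (σ : List Cell → Cell) (b : ℕ → Cell) (n : ℕ) : Prop :=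
  (∀ k ≤ n, b n ≠ makerCell σ b k) ∧ (∀ k < n, b n ≠ b k)

/-- Maker has a winning strategy in the achievement game for Snaky on the initially empty board
`ℤ²`, no handicap: a strategy `σ` such that Maker's claims are legal as long as Breaker's are, and
against every legal sequence of Breaker claims Maker owns an allowed copy after finitely many turns. -/
def MakerHasWinningStrategy : Prop :=
  ∃ σ : List Cell → Cell,
    (∀ (b : ℕ → Cell) (n : ℕ), (∀ k < n, BreakerLegalAt σ b k) → MakerLegalAt σ b n) ∧
    (∀ b : ℕ → Cell, (∀ n, BreakerLegalAt σ b n) →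
      ∃ n, OwnsCopy {c | ∃ k ≤ n, c = makerCell σ b k})

end Vale.Agent.Lib.P062
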