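import Vale.Agent.Lib.P062.Defs

/-!
Statement of the partial result: Maker opens at the origin and wins against every first reply
of Breaker at `ℓ¹` distance at least three from the origin.
-/

namespace Vale.Agent.Lib.P062

/-- A strategy `σ` for Maker that opens at the origin, whose claims are legal as long as Breaker's
are, and that wins after finitely many turns against every legal sequence of Breaker claims whose
first claim `b 0` is at `ℓ¹` distance at least `3` from the origin (`natAbs` is the absolute value). The only first replies not
covered are the twelve cells `(x, y)` with `1 ≤ |x| + |y| ≤ 2`. -/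
def MakerWinsAgainstFarReplies : Prop :=
  ∃ σ : List Cell → Cell, σ [] = (0, 0) ∧
    (∀ (b : ℕ → Cell) (n : ℕ), (∀ k < n, BreakerLegalAt σ b k) → MakerLegalAt σ b n) ∧
    (∀ b : ℕ → Cell, (∀ n, BreakerLegalAt σ b n) → 3 ≤ (b 0).1.natAbs + (b 0).2.natAbs →
      ∃ n, OwnsCopy {c | ∃ k ≤ n, c = makerCell σ b k})

end Vale.Agent.Lib.P062
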