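import Vale.Agent.Lib.P062.Top
import Vale.Agent.Lib.P062.FarDefs

/-!
The strategy for the partial result: a strategy that opens at the origin and then plays from the
position reached, together with the covering of the far replies.
-/

namespace Vale.Agent.Lib.P062

open Classical

/-- The position after Breaker's first reply `r` and its further claims `l`. -/
noncomputable def posFrom (r : Cell) (l : List Cell) : Finset Cell × Finset Cell :=
  l.foldl stepPos ({(0, 0)}, {r})

/-- The strategy opening at the origin. -/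
noncomputable def farStrategy : List Cell → Cell
  | [] => (0, 0)
  | r :: l => nextMove (posFrom r l).1 (posFrom r l).2

/-- The position after `n + 1` Breaker claims. -/
noncomputable def posP (b : ℕ → Cell) (n : ℕ) : Finset Cell × Finset Cell :=
  posFrom (b 0) ((List.range n).map (fun i => b (i + 1)))

theorem posP_zero (b : ℕ → Cell) : posP b 0 = ({(0, 0)}, {b 0}) := by
  simp [posP, posFrom]

theorem posP_succ (b : ℕ → Cell) (n : ℕ) : posP b (n + 1) = stepPos (posP b n) (b (n + 1)) := by
  simp [posP, posFrom, List.range_succ, List.map_append, List.foldl_append]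

theorem makerCell_far_zero (b : ℕ → Cell) : makerCell farStrategy b 0 = (0, 0) := rfl

theorem makerCell_far_succ (b : ℕ → Cell) (n : ℕ) :
    makerCell farStrategy b (n + 1) = nextMove (posP b n).1 (posP b n).2 := by
  unfold makerCell
  rw [List.range_succ_eq_map, List.map_cons, List.map_map]
  rfl

theorem mem_posP_fst (b : ℕ → Cell) : ∀ (n : ℕ) (x : Cell),
    x ∈ (posP b n).1 ↔ ∃ k ≤ n, x = makerCell farStrategy b k
  | 0, x => by
    rw [posP_zero]
    simp [makerCell_far_zero]
  | n + 1, x => by
    rw [posP_succ]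
    simp only [stepPos, Finset.mem_insert]
    rw [mem_posP_fst b n x, ← makerCell_far_succ]
    constructor
    · rintro (h | ⟨k, hk, h⟩)
      · exact ⟨n + 1, le_rfl, h⟩
      · exact ⟨k, by omega, h⟩
    · rintro ⟨k, hk, h⟩
      by_cases hkn : k = n + 1
      · subst hkn; exact Or.inl h
      · exact Or.inr ⟨k, by omega, h⟩

theorem mem_posP_snd (b : ℕ → Cell) : ∀ (n : ℕ) (x : Cell),
    x ∈ (posP b n).2 ↔ ∃ k ≤ n, x = b k
  | 0, x => by
    rw [posP_zero]
    simp
  | n + 1, x => by
    rw [posP_succ]
    simp only [stepPos, Finset.mem_insert]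
    rw [mem_posP_snd b n x]
    constructor
    · rintro (h | ⟨k, hk, h⟩)
      · exact ⟨n + 1, le_rfl, h⟩
      · exact ⟨k, by omega, h⟩
    · rintro ⟨k, hk, h⟩
      by_cases hkn : k = n + 1
      · subst hkn; exact Or.inl h
      · exact Or.inr ⟨k, by omega, h⟩

theorem far_forces_wins (b : ℕ → Cell) (hb : ∀ n, BreakerLegalAt farStrategy b n) :
    ∀ (d n : ℕ), ForcesIn d (posP b n).1 (posP b n).2 →
      ∃ k, OwnsCopy (↑(insert (makerCell farStrategy b (k + 1)) (posP b k).1) : Set Cell)
  | 0, _, h => h.elim
  | d + 1, n, h => by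
    have hs := (nextMove_spec (posP b n).1 (posP b n).2).2.2 d h
    rcases hs with hw | hw
    · refine ⟨n, ?_⟩
      rw [makerCell_far_succ]
      exact hw
    · have hlegal := hb (n + 1)
      have h1 : b (n + 1) ∉ insert (nextMove (posP b n).1 (posP b n).2) (posP b n).1 := by
        intro hmem
        rw [Finset.mem_insert] at hmem
        rcases hmem with h' | h'
        · rw [← makerCell_far_succ] at h'
          exact hlegal.1 (n + 1) le_rfl h'
        · rw [mem_posP_fst] at h'
          obtain ⟨k, hk, h'⟩ := h'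
          exact hlegal.1 k (by omega) h'
      have h2 : b (n + 1) ∉ (posP b n).2 := by
        intro hmem
        rw [mem_posP_snd] at hmem
        obtain ⟨k, hk, h'⟩ := hmem
        exact hlegal.2 k (by omega) h'
      have h3 := hw (b (n + 1)) h1 h2
      have h4 : ForcesIn d (posP b (n + 1)).1 (posP b (n + 1)).2 := by
        rw [posP_succ]
        exact h3
      exact far_forces_wins b hb d (n + 1) h4

/-- From a uniform forcing bound on the replies `r` with `R r` to the strategy. -/
theorem far_strategy_spec (R : Cell → Prop) (D : ℕ)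
    (h : ∀ r : Cell, R r → r ≠ (0, 0) → ForcesIn D {(0, 0)} {r}) :
    farStrategy [] = (0, 0) ∧
    (∀ (b : ℕ → Cell) (n : ℕ), (∀ k < n, BreakerLegalAt farStrategy b k) →
      MakerLegalAt farStrategy b n) ∧
    (∀ b : ℕ → Cell, (∀ n, BreakerLegalAt farStrategy b n) → R (b 0) →
      ∃ n, OwnsCopy {c | ∃ k ≤ n, c = makerCell farStrategy b k}) := by
  refine ⟨rfl, ?_, ?_⟩
  · intro b n hleg
    cases n with
    | zero => exact ⟨fun k hk => absurd hk (by omega), fun k hk => absurd hk (by omega)⟩
    | succ n =>
      have hs := nextMove_spec (posP b n).1 (posP b n).2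
      rw [← makerCell_far_succ] at hs
      constructor
      · intro k hk heq
        apply hs.1
        rw [mem_posP_fst]
        exact ⟨k, by omega, heq⟩
      · intro k hk heq
        apply hs.2.1
        rw [mem_posP_snd]
        exact ⟨k, by omega, heq⟩
  · intro b hb hR
    have hne : b 0 ≠ (0, 0) := fun h0 => (hb 0).1 0 le_rfl (by rw [h0, makerCell_far_zero])
    have h0 : ForcesIn D (posP b 0).1 (posP b 0).2 := by
      rw [posP_zero]; exact h _ hR hne
    obtain ⟨k, hk⟩ := far_forces_wins b hb D 0 h0
    refine ⟨k + 1, hk.mono ?_⟩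
    intro x hx
    simp only [Finset.coe_insert, Set.mem_insert_iff, Finset.mem_coe] at hx
    rcases hx with hx | hx
    · exact ⟨k + 1, le_rfl, hx⟩
    · rw [mem_posP_fst] at hx
      obtain ⟨j, hj, hx⟩ := hx
      exact ⟨j, by omega, hx⟩

/-- The `ℓ¹` norm of a window bit, relative to the center of the window. -/
def farBit (b : ℕ) : Bool :=
  3 ≤ (if b % 15 ≤ 7 then 7 - b % 15 else b % 15 - 7) + (if b / 15 ≤ 7 then 7 - b / 15 else b / 15 - 7)

theorem farBit_of_cellOf {b : ℕ} (hb : b < 225)
    (h : 3 ≤ (cellOf b).1.natAbs + (cellOf b).2.natAbs) : farBit b = true := by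
  have h1 : b % 15 < 15 := Nat.mod_lt _ (by norm_num)
  have h2 : b / 15 < 15 := by omega
  simp only [cellOf] at h
  simp only [farBit, decide_eq_true_eq]
  split_ifs <;> omega

/-- The covering check for the far replies. -/
def coverFarOK (classes : List (ℕ × ℕ)) : Bool :=
  classes ≠ [] ∧ (List.range 225).all (fun b => !farBit b ||
    classes.any (fun c => (List.range 8).any (fun o =>
      let b' := gbit o b; !(c.2.testBit b') || b' == c.1)))

theorem forces_far (classes : List (ℕ × ℕ))
    (hp : ∀ c ∈ classes, ∃ d, ProvedIn d (1 <<< centerBit) (1 <<< c.1) c.2)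
    (hr : ∀ c ∈ classes, c.1 < 225)
    (hcov : coverFarOK classes = true) :
    ∃ D, ∀ r : Cell, 3 ≤ r.1.natAbs + r.2.natAbs → r ≠ (0, 0) → ForcesIn D {(0, 0)} {r} := by
  obtain ⟨D, hD⟩ := exists_uniform (P := fun d (c : ℕ × ℕ) =>
    ProvedIn d (1 <<< centerBit) (1 <<< c.1) c.2) (fun h hd => h.mono hd) classes hp
  simp only [coverFarOK, Bool.and_eq_true, decide_eq_true_eq, List.all_eq_true, List.mem_range,
    Bool.or_eq_true, beq_iff_eq, List.any_eq_true, Bool.not_eq_true'] at hcov
  obtain ⟨hne, hcov⟩ := hcov
  refine ⟨D, ?_⟩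
  intro r hfar hr0
  have hex : ∃ c ∈ classes, ∃ o, (r ∉ (toF c.2).image (symOf o).inv.act) ∨
      r = (symOf o).inv.act (cellOf c.1) := by
    by_cases hwin : ∃ b, b < 225 ∧ cellOf b = r
    · obtain ⟨b, hb, rfl⟩ := hwin
      rcases hcov b hb with h | ⟨c, hc, o, _, ho⟩
      · rw [farBit_of_cellOf hb hfar] at h
        exact absurd h (by simp)
      · refine ⟨c, hc, o, ?_⟩
        rcases ho with ho | ho
        · left
          intro hmem
          obtain ⟨x, hx, hxe⟩ := Finset.mem_image.mp hmem
          have h3 : x = cellOf (gbit o b) := by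
            rw [cellOf_gbit hb, ← hxe, Sym.act_inv]
          rw [h3, cellOf_mem_toF (gbit_lt hb), ho] at hx
          simp at hx
        · right
          rw [← ho, cellOf_gbit hb, Sym.inv_act]
    · obtain ⟨c, hc⟩ := List.exists_mem_of_ne_nil classes hne
      refine ⟨c, hc, 0, Or.inl ?_⟩
      intro hmem
      obtain ⟨x, hx, hxe⟩ := Finset.mem_image.mp hmem
      obtain ⟨b, hb, _, hbe⟩ := mem_toF.mp hx
      apply hwin
      refine ⟨b, hb, ?_⟩
      have hid : (symOf 0).inv.act x = x := by
        simp [Sym.inv, symOf, Sym.act, orient]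
      rw [← hxe, hid, hbe]
  obtain ⟨c, hc, o, ho⟩ := hex
  have hmask := hD c hc
  set g := (symOf o).inv with hg
  rcases ho with ho | ho
  · have h1 := hmask {g.inv.act r} (by
      intro x hx hxZ
      rw [Finset.mem_singleton] at hx
      apply ho
      refine Finset.mem_image.mpr ⟨x, hxZ, ?_⟩
      rw [hx, Sym.act_inv])
    have h2 := ForcesIn.sym g h1
    rw [toF_center, Finset.image_singleton, sym_center] at h2
    refine h2.anti_B ?_
    intro y hy
    rw [Finset.mem_singleton] at hy
    rw [hy]
    refine Finset.mem_image.mpr ⟨g.inv.act r, ?_, g.act_inv r⟩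
    exact Finset.mem_union_right _ (Finset.mem_singleton_self _)
  · have h1 := hmask ∅ (by simp)
    have h2 := ForcesIn.sym g h1
    rw [toF_center, Finset.image_singleton, sym_center] at h2
    refine h2.anti_B ?_
    intro y hy
    rw [Finset.mem_singleton] at hy
    rw [hy, ho]
    refine Finset.mem_image.mpr ⟨cellOf c.1, ?_, rfl⟩
    apply Finset.mem_union_left
    rw [cellOf_mem_toF (hr c hc), Nat.one_shiftLeft, Nat.testBit_two_pow]
    simp

/-- The partial result from certified classes. -/
theorem farWins_of_classes (classes : List (ℕ × ℕ))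
    (hp : ∀ c ∈ classes, ∃ d, ProvedIn d (1 <<< centerBit) (1 <<< c.1) c.2)
    (hr : ∀ c ∈ classes, c.1 < 225)
    (hcov : coverFarOK classes = true) : MakerWinsAgainstFarReplies := by
  obtain ⟨D, hD⟩ := forces_far classes hp hr hcov
  exact ⟨farStrategy, far_strategy_spec (fun r => 3 ≤ r.1.natAbs + r.2.natAbs) D hD⟩

end Vale.Agent.Lib.P062
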