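import Mathlib.Data.Fintype.EquivFin
import Mathlib.Data.Finset.Image
import Mathlib.Data.Finset.Filter
import Mathlib.Data.Finset.Insert
import Mathlib.Order.Interval.Finset.Nat
import Mathlib.Tactic.Ring
import Vale.Agent.Lib.P062.Defs

/-!
Depth bounded forcing and the passage from a forcing statement to a winning strategy.
-/

namespace Vale.Agent.Lib.P062

open Classical

/-- Maker, to move in the position with Maker cells `M` and Breaker cells `B`, can force an allowed
copy within `d` of its own moves. -/
def ForcesIn : ℕ → Finset Cell → Finset Cell → Prop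
  | 0, _, _ => False
  | d + 1, M, B => ∃ c, c ∉ M ∧ c ∉ B ∧ (OwnsCopy (↑(insert c M) : Set Cell) ∨
      ∀ r, r ∉ insert c M → r ∉ B → ForcesIn d (insert c M) (insert r B))

theorem OwnsCopy.mono {A A' : Set Cell} (h : OwnsCopy A) (hs : A ⊆ A') : OwnsCopy A' := by
  obtain ⟨t, s, sx, sy, hx, hy, hp⟩ := h
  exact ⟨t, s, sx, sy, hx, hy, fun p hp' => hs (hp p hp')⟩

theorem exists_fresh (S : Finset Cell) : ∃ x : Cell, x ∉ S := Infinite.exists_notMem_finset S

theorem ForcesIn.mono_d : ∀ {d d' : ℕ} {M B : Finset Cell}, ForcesIn d M B → d ≤ d' → ForcesIn d' M B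
  | 0, _, _, _, h, _ => h.elim
  | d + 1, 0, _, _, _, hle => by omega
  | d + 1, d' + 1, M, B, h, hle => by
    obtain ⟨c, hcM, hcB, hwin⟩ := h
    refine ⟨c, hcM, hcB, ?_⟩
    rcases hwin with hw | hw
    · exact Or.inl hw
    · exact Or.inr fun r h1 h2 => ForcesIn.mono_d (hw r h1 h2) (by omega)

/-- Fewer Breaker stones can only help Maker. -/
theorem ForcesIn.anti_B : ∀ {d : ℕ} {M B B' : Finset Cell}, ForcesIn d M B → B' ⊆ B → ForcesIn d M B'
  | 0, _, _, _, h, _ => h.elim
  | d + 1, M, B, B', h, hs => by
    obtain ⟨c, hcM, hcB, hwin⟩ := h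
    refine ⟨c, hcM, fun hc => hcB (hs hc), ?_⟩
    rcases hwin with hw | hw
    · exact Or.inl hw
    · refine Or.inr fun r h1 h2 => ?_
      by_cases hrB : r ∈ B
      · obtain ⟨x, hx⟩ := exists_fresh (insert c M ∪ B)
        have hx1 : x ∉ insert c M := fun h => hx (Finset.mem_union_left _ h)
        have hx2 : x ∉ B := fun h => hx (Finset.mem_union_right _ h)
        refine ForcesIn.anti_B (hw x hx1 hx2) ?_
        intro y hy
        rw [Finset.mem_insert] at hy
        rcases hy with rfl | hy
        · exact Finset.mem_insert_of_mem hrB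
        · exact Finset.mem_insert_of_mem (hs hy)
      · refine ForcesIn.anti_B (hw r h1 hrB) ?_
        exact Finset.insert_subset_insert r hs

/-- A good move for Maker in a position: it is unclaimed and it realises every depth bound. -/
theorem exists_good (M B : Finset Cell) : ∃ c, c ∉ M ∧ c ∉ B ∧ ∀ d, ForcesIn (d + 1) M B →
    (OwnsCopy (↑(insert c M) : Set Cell) ∨
      ∀ r, r ∉ insert c M → r ∉ B → ForcesIn d (insert c M) (insert r B)) := by
  by_cases h : ∃ d, ForcesIn (d + 1) M B
  · let d0 := Nat.find h
    obtain ⟨c, hcM, hcB, hwin⟩ := Nat.find_spec h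
    refine ⟨c, hcM, hcB, fun d hd => ?_⟩
    have hle : Nat.find h ≤ d := Nat.find_min' h hd
    rcases hwin with hw | hw
    · exact Or.inl hw
    · exact Or.inr fun r h1 h2 => (hw r h1 h2).mono_d hle
  · obtain ⟨x, hx⟩ := exists_fresh (M ∪ B)
    refine ⟨x, fun h' => hx (Finset.mem_union_left _ h'), fun h' => hx (Finset.mem_union_right _ h'),
      fun d hd => (h ⟨d, hd⟩).elim⟩

/-- The move chosen by the strategy. -/
noncomputable def nextMove (M B : Finset Cell) : Cell := Classical.choose (exists_good M B)

theorem nextMove_spec (M B : Finset Cell) :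
    nextMove M B ∉ M ∧ nextMove M B ∉ B ∧ ∀ d, ForcesIn (d + 1) M B →
    (OwnsCopy (↑(insert (nextMove M B) M) : Set Cell) ∨
      ∀ r, r ∉ insert (nextMove M B) M → r ∉ B →
        ForcesIn d (insert (nextMove M B) M) (insert r B)) :=
  Classical.choose_spec (exists_good M B)

/-- One round: Maker plays its chosen move, Breaker replies `r`. -/
noncomputable def stepPos (P : Finset Cell × Finset Cell) (r : Cell) : Finset Cell × Finset Cell :=
  (insert (nextMove P.1 P.2) P.1, insert r P.2)

/-- The position reached after Breaker's claims `l`. -/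
noncomputable def posL (l : List Cell) : Finset Cell × Finset Cell := l.foldl stepPos (∅, ∅)

/-- The strategy. -/
noncomputable def theStrategy (l : List Cell) : Cell := nextMove (posL l).1 (posL l).2

/-- The position after `n` rounds against `b`. -/
noncomputable def posN (b : ℕ → Cell) (n : ℕ) : Finset Cell × Finset Cell :=
  posL ((List.range n).map b)

theorem posN_zero (b : ℕ → Cell) : posN b 0 = (∅, ∅) := by
  simp [posN, posL]

theorem posN_succ (b : ℕ → Cell) (n : ℕ) : posN b (n + 1) = stepPos (posN b n) (b n) := by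
  simp [posN, posL, List.range_succ, List.map_append, List.foldl_append]

theorem makerCell_theStrategy (b : ℕ → Cell) (n : ℕ) :
    makerCell theStrategy b n = nextMove (posN b n).1 (posN b n).2 := rfl

theorem mem_posN_fst (b : ℕ → Cell) : ∀ (n : ℕ) (x : Cell),
    x ∈ (posN b n).1 ↔ ∃ k < n, x = makerCell theStrategy b k
  | 0, x => by simp [posN_zero]
  | n + 1, x => by
    rw [posN_succ]
    simp only [stepPos, Finset.mem_insert]
    rw [mem_posN_fst b n x, ← makerCell_theStrategy]
    constructor
    · rintro (h | ⟨k, hk, h⟩)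
      · exact ⟨n, by omega, h⟩
      · exact ⟨k, by omega, h⟩
    · rintro ⟨k, hk, h⟩
      by_cases hkn : k = n
      · subst hkn; exact Or.inl h
      · exact Or.inr ⟨k, by omega, h⟩

theorem mem_posN_snd (b : ℕ → Cell) : ∀ (n : ℕ) (x : Cell),
    x ∈ (posN b n).2 ↔ ∃ k < n, x = b k
  | 0, x => by simp [posN_zero]
  | n + 1, x => by
    rw [posN_succ]
    simp only [stepPos, Finset.mem_insert]
    rw [mem_posN_snd b n x]
    constructor
    · rintro (h | ⟨k, hk, h⟩)
      · exact ⟨n, by omega, h⟩
      · exact ⟨k, by omega, h⟩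
    · rintro ⟨k, hk, h⟩
      by_cases hkn : k = n
      · subst hkn; exact Or.inl h
      · exact Or.inr ⟨k, by omega, h⟩

theorem forces_wins (b : ℕ → Cell) (hb : ∀ n, BreakerLegalAt theStrategy b n) :
    ∀ (d n : ℕ), ForcesIn d (posN b n).1 (posN b n).2 →
      ∃ k, OwnsCopy (↑(insert (makerCell theStrategy b k) (posN b k).1) : Set Cell)
  | 0, _, h => h.elim
  | d + 1, n, h => by
    have hs := (nextMove_spec (posN b n).1 (posN b n).2).2.2 d h
    rcases hs with hw | hw
    · exact ⟨n, hw⟩
    · have hlegal := hb n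
      have h1 : b n ∉ insert (nextMove (posN b n).1 (posN b n).2) (posN b n).1 := by
        intro hmem
        rw [Finset.mem_insert] at hmem
        rcases hmem with h' | h'
        · exact hlegal.1 n le_rfl h'
        · rw [mem_posN_fst] at h'
          obtain ⟨k, hk, h'⟩ := h'
          exact hlegal.1 k (by omega) h'
      have h2 : b n ∉ (posN b n).2 := by
        intro hmem
        rw [mem_posN_snd] at hmem
        obtain ⟨k, hk, h'⟩ := hmem
        exact hlegal.2 k hk h'
      have h3 := hw (b n) h1 h2
      have h4 : ForcesIn d (posN b (n + 1)).1 (posN b (n + 1)).2 := by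
        rw [posN_succ]
        exact h3
      exact forces_wins b hb d (n + 1) h4

/-- A forcing statement from the empty position gives the winning strategy. -/
theorem strategy_of_forces {d : ℕ} (h : ForcesIn d ∅ ∅) : MakerHasWinningStrategy := by
  refine ⟨theStrategy, ?_, ?_⟩
  · intro b n _
    have hs := nextMove_spec (posN b n).1 (posN b n).2
    constructor
    · intro k hk heq
      apply hs.1
      rw [mem_posN_fst]
      exact ⟨k, hk, heq⟩
    · intro k hk heq
      apply hs.2.1
      rw [mem_posN_snd]
      exact ⟨k, hk, heq⟩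
  · intro b hb
    have h0 : ForcesIn d (posN b 0).1 (posN b 0).2 := by
      rw [posN_zero]; exact h
    obtain ⟨k, hk⟩ := forces_wins b hb d 0 h0
    refine ⟨k, hk.mono ?_⟩
    intro x hx
    simp only [Finset.coe_insert, Set.mem_insert_iff, Finset.mem_coe] at hx
    rcases hx with hx | hx
    · exact ⟨k, le_rfl, hx⟩
    · rw [mem_posN_fst] at hx
      obtain ⟨j, hj, hx⟩ := hx
      exact ⟨j, by omega, hx⟩

end Vale.Agent.Lib.P062
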