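import Vale.Agent.Lib.P062.Defs

/-!
Statement of a partial result: Maker opens at the origin and wins against every first reply of
Breaker that is not one of the eight neighbours of the origin.
-/

namespace Vale.Agent.Lib.P062

/-- A strategy `σ` for Maker that opens at the origin, whose claims are legal as long as Breaker's
are, and that wins after finitely many turns against every legal sequence of Breaker claims whose
first claim `b 0 = (x, y)` has `|x| ≥ 2` or `|y| ≥ 2` (`natAbs` is the absolute value). The only first
replies not covered are the eight neighbours of the origin. -/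
def MakerWinsAgainstNonNeighbourReplies : Prop :=
  ∃ σ : List Cell → Cell, σ [] = (0, 0) ∧
    (∀ (b : ℕ → Cell) (n : ℕ), (∀ k < n, BreakerLegalAt σ b k) → MakerLegalAt σ b n) ∧
    (∀ b : ℕ → Cell, (∀ n, BreakerLegalAt σ b n) → (2 ≤ (b 0).1.natAbs ∨ 2 ≤ (b 0).2.natAbs) →
      ∃ n, OwnsCopy {c | ∃ k ≤ n, c = makerCell σ b k})

end Vale.Agent.Lib.P062
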