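import Vale.Agent.Lib.P062.Defs

/-!
Statement of a partial result: after Maker opens at the origin, a single line of play, up to the
symmetries of the board, is not yet shown to lose for Breaker.
-/

namespace Vale.Agent.Lib.P062

/-- The play `b` against the strategy `σ` follows the open line: for one of the eight symmetries
`g = orient s sx sy` of the board, Breaker's first three claims are `g (1, 0)`, `g (-1, 1)`,
`g (-3, 0)` and Maker's second and third claims are `g (-1, 0)`, `g (-2, 0)`. -/
def FollowsOpenLine (σ : List Cell → Cell) (b : ℕ → Cell) : Prop :=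
  ∃ (s : Bool) (sx sy : ℤ), (sx = 1 ∨ sx = -1) ∧ (sy = 1 ∨ sy = -1) ∧
    b 0 = orient s sx sy (1, 0) ∧ makerCell σ b 1 = orient s sx sy (-1, 0) ∧
    b 1 = orient s sx sy (-1, 1) ∧ makerCell σ b 2 = orient s sx sy (-2, 0) ∧
    b 2 = orient s sx sy (-3, 0)

/-- A strategy `σ` for Maker that opens at the origin, whose claims are legal as long as Breaker's
are, and such that every legal sequence of Breaker claims either lets Maker own an allowed copy after
finitely many turns or follows the open line. -/
def MakerWinsOffOneLine : Prop :=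
  ∃ σ : List Cell → Cell, σ [] = (0, 0) ∧
    (∀ (b : ℕ → Cell) (n : ℕ), (∀ k < n, BreakerLegalAt σ b k) → MakerLegalAt σ b n) ∧
    (∀ b : ℕ → Cell, (∀ n, BreakerLegalAt σ b n) →
      (∃ n, OwnsCopy {c | ∃ k ≤ n, c = makerCell σ b k}) ∨ FollowsOpenLine σ b)

end Vale.Agent.Lib.P062
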