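import Vale.Agent.Lib.P062.Adj
import Vale.Agent.Lib.P062.LineDefs

/-!
The strategy for the partial result: prescribed moves along the open line, and a forcing move
everywhere else; and the passage from window certificates to forcing statements for a position.
-/

namespace Vale.Agent.Lib.P062

open Classical

/-- One of the four cells sharing an edge with the origin. -/
def isUnitCell (u : Cell) : Prop := u.1.natAbs + u.2.natAbs = 1

/-- `v` is one of the two diagonal neighbours of the origin on the side opposite to the unit `u`. -/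
def isDiagBehind (u v : Cell) : Prop :=
  v.1.natAbs = 1 ∧ v.2.natAbs = 1 ∧ u.1 * v.1 + u.2 * v.2 = -1

/-- The prescribed moves: the list is the list of Breaker's claims so far. -/
noncomputable def guideMove : List Cell → Option Cell
  | [] => some (0, 0)
  | [u] => if isUnitCell u then some (-u) else none
  | [u, v] => if isUnitCell u ∧ isDiagBehind u v then some (-(u + u)) else none
  | _ => none

theorem guideMove_step {l : List Cell} (h : guideMove l = none) (r : Cell) :
    guideMove (l ++ [r]) = none := by
  match l, h with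
  | [], h => simp [guideMove] at h
  | [u], h =>
    have hu : ¬ isUnitCell u := by
      intro hu
      simp [guideMove, hu] at h
    simp [guideMove, hu]
  | [u, v], h => simp [guideMove]
  | _ :: _ :: _ :: _, h => simp [guideMove]

/-- The state of the play: Maker's cells, Breaker's cells and the list of Breaker's claims. -/
abbrev LState := Finset Cell × Finset Cell × List Cell

/-- Maker's move in a state. -/
noncomputable def lineMove (S : LState) : Cell := (guideMove S.2.2).getD (nextMove S.1 S.2.1)

/-- One round. -/
noncomputable def lineStep (S : LState) (r : Cell) : LState :=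
  (insert (lineMove S) S.1, insert r S.2.1, S.2.2 ++ [r])

/-- The state after Breaker's claims `l`. -/
noncomputable def lineState (l : List Cell) : LState := l.foldl lineStep (∅, ∅, [])

/-- The strategy. -/
noncomputable def lineStrategy (l : List Cell) : Cell := lineMove (lineState l)

/-- The state after `n` rounds against `b`. -/
noncomputable def stN (b : ℕ → Cell) (n : ℕ) : LState := lineState ((List.range n).map b)

theorem stN_zero (b : ℕ → Cell) : stN b 0 = (∅, ∅, []) := by
  simp [stN, lineState]

theorem stN_succ (b : ℕ → Cell) (n : ℕ) : stN b (n + 1) = lineStep (stN b n) (b n) := by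
  simp [stN, lineState, List.range_succ, List.map_append, List.foldl_append]

theorem makerCell_line (b : ℕ → Cell) (n : ℕ) :
    makerCell lineStrategy b n = lineMove (stN b n) := rfl

theorem hist_stN (b : ℕ → Cell) : ∀ n, (stN b n).2.2 = (List.range n).map b
  | 0 => by simp [stN_zero]
  | n + 1 => by
    rw [stN_succ]
    simp [lineStep, hist_stN b n, List.range_succ, List.map_append]

theorem mem_stN_fst (b : ℕ → Cell) : ∀ (n : ℕ) (x : Cell),
    x ∈ (stN b n).1 ↔ ∃ k < n, x = makerCell lineStrategy b k
  | 0, x => by simp [stN_zero]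
  | n + 1, x => by
    rw [stN_succ]
    simp only [lineStep, Finset.mem_insert]
    rw [mem_stN_fst b n x, ← makerCell_line]
    constructor
    · rintro (h | ⟨k, hk, h⟩)
      · exact ⟨n, by omega, h⟩
      · exact ⟨k, by omega, h⟩
    · rintro ⟨k, hk, h⟩
      by_cases hkn : k = n
      · subst hkn; exact Or.inl h
      · exact Or.inr ⟨k, by omega, h⟩

theorem mem_stN_snd (b : ℕ → Cell) : ∀ (n : ℕ) (x : Cell),
    x ∈ (stN b n).2.1 ↔ ∃ k < n, x = b k
  | 0, x => by simp [stN_zero]
  | n + 1, x => by
    rw [stN_succ]
    simp only [lineStep, Finset.mem_insert]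
    rw [mem_stN_snd b n x]
    constructor
    · rintro (h | ⟨k, hk, h⟩)
      · exact ⟨n, by omega, h⟩
      · exact ⟨k, by omega, h⟩
    · rintro ⟨k, hk, h⟩
      by_cases hkn : k = n
      · subst hkn; exact Or.inl h
      · exact Or.inr ⟨k, by omega, h⟩

theorem lineMove_free (b : ℕ → Cell) (n : ℕ) (hg : guideMove (stN b n).2.2 = none) :
    makerCell lineStrategy b n = nextMove (stN b n).1 (stN b n).2.1 := by
  rw [makerCell_line, lineMove, hg]
  rfl

/-- Once the play is forced away from the prescribed moves, Maker wins. -/
theorem line_forces_wins (b : ℕ → Cell) (hb : ∀ n, BreakerLegalAt lineStrategy b n) :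
    ∀ (d n : ℕ), guideMove (stN b n).2.2 = none → ForcesIn d (stN b n).1 (stN b n).2.1 →
      ∃ k, OwnsCopy (↑(insert (makerCell lineStrategy b k) (stN b k).1) : Set Cell)
  | 0, _, _, h => h.elim
  | d + 1, n, hg, h => by
    have hs := (nextMove_spec (stN b n).1 (stN b n).2.1).2.2 d h
    rw [← lineMove_free b n hg] at hs
    rcases hs with hw | hw
    · exact ⟨n, hw⟩
    · have hlegal := hb n
      have h1 : b n ∉ insert (makerCell lineStrategy b n) (stN b n).1 := by
        intro hmem
        rw [Finset.mem_insert] at hmem
        rcases hmem with h' | h'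
        · exact hlegal.1 n le_rfl h'
        · rw [mem_stN_fst] at h'
          obtain ⟨k, hk, h'⟩ := h'
          exact hlegal.1 k (by omega) h'
      have h2 : b n ∉ (stN b n).2.1 := by
        intro hmem
        rw [mem_stN_snd] at hmem
        obtain ⟨k, hk, h'⟩ := hmem
        exact hlegal.2 k hk h'
      have h3 := hw (b n) h1 h2
      have h4 : ForcesIn d (stN b (n + 1)).1 (stN b (n + 1)).2.1 := by
        rw [stN_succ]
        exact h3
      have hg' : guideMove (stN b (n + 1)).2.2 = none := by
        rw [stN_succ]
        exact guideMove_step hg _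
      exact line_forces_wins b hb d (n + 1) hg' h4

theorem owns_of_forced (b : ℕ → Cell) (hb : ∀ n, BreakerLegalAt lineStrategy b n) (d n : ℕ)
    (hg : guideMove (stN b n).2.2 = none) (h : ForcesIn d (stN b n).1 (stN b n).2.1) :
    ∃ n, OwnsCopy {c | ∃ k ≤ n, c = makerCell lineStrategy b k} := by
  obtain ⟨k, hk⟩ := line_forces_wins b hb d n hg h
  refine ⟨k, hk.mono ?_⟩
  intro x hx
  simp only [Finset.coe_insert, Set.mem_insert_iff, Finset.mem_coe] at hx
  rcases hx with hx | hx
  · exact ⟨k, le_rfl, hx⟩
  · rw [mem_stN_fst] at hx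
    obtain ⟨j, hj, hx⟩ := hx
    exact ⟨j, by omega, hx⟩

theorem stN_one (b : ℕ → Cell) : stN b 1 = ({(0, 0)}, {b 0}, [b 0]) := by
  rw [stN_succ, stN_zero]
  simp [lineStep, lineMove, guideMove]

theorem makerCell_line_zero (b : ℕ → Cell) : makerCell lineStrategy b 0 = (0, 0) := by
  rw [makerCell_line, stN_zero]
  simp [lineMove, guideMove]

theorem makerCell_line_one (b : ℕ → Cell) (hu : isUnitCell (b 0)) :
    makerCell lineStrategy b 1 = -(b 0) := by
  rw [makerCell_line, stN_one]
  simp [lineMove, guideMove, hu]

theorem stN_two (b : ℕ → Cell) (hu : isUnitCell (b 0)) :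
    stN b 2 = (insert (-(b 0)) {(0, 0)}, insert (b 1) {b 0}, [b 0, b 1]) := by
  rw [stN_succ, stN_one]
  have h := makerCell_line_one b hu
  rw [makerCell_line, stN_one] at h
  simp [lineStep, h]

theorem makerCell_line_two (b : ℕ → Cell) (hu : isUnitCell (b 0)) (hv : isDiagBehind (b 0) (b 1)) :
    makerCell lineStrategy b 2 = -(b 0 + b 0) := by
  rw [makerCell_line, stN_two b hu]
  simp [lineMove, guideMove, hu, hv]

theorem stN_three (b : ℕ → Cell) (hu : isUnitCell (b 0)) (hv : isDiagBehind (b 0) (b 1)) :
    stN b 3 = (insert (-(b 0 + b 0)) (insert (-(b 0)) {(0, 0)}), insert (b 2) (insert (b 1) {b 0}),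
      [b 0, b 1, b 2]) := by
  rw [stN_succ, stN_two b hu]
  have h := makerCell_line_two b hu hv
  rw [makerCell_line, stN_two b hu] at h
  simp [lineStep, h]

/-- Maker's claims are legal. -/
theorem line_legal (b : ℕ → Cell) (n : ℕ) (hleg : ∀ k < n, BreakerLegalAt lineStrategy b k) :
    MakerLegalAt lineStrategy b n := by
  by_cases hg : guideMove (stN b n).2.2 = none
  · have hs := nextMove_spec (stN b n).1 (stN b n).2.1
    rw [← lineMove_free b n hg] at hs
    constructor
    · intro k hk heq
      apply hs.1
      rw [mem_stN_fst]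
      exact ⟨k, hk, heq⟩
    · intro k hk heq
      apply hs.2.1
      rw [mem_stN_snd]
      exact ⟨k, hk, heq⟩
  · rw [hist_stN] at hg
    match n, hg with
    | 0, _ => exact ⟨fun k hk => absurd hk (by omega), fun k hk => absurd hk (by omega)⟩
    | 1, hg =>
      have hu : isUnitCell (b 0) := by
        by_contra hu
        simp [guideMove, hu] at hg
      rw [MakerLegalAt, makerCell_line_one b hu]
      constructor
      · intro k hk
        have hk0 : k = 0 := by omega
        subst hk0
        rw [makerCell_line_zero]
        intro h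
        have h1 := congrArg Prod.fst h
        have h2 := congrArg Prod.snd h
        simp only [isUnitCell, Prod.fst_neg, Prod.snd_neg] at *
        omega
      · intro k hk
        have hk0 : k = 0 := by omega
        subst hk0
        intro h
        have h1 := congrArg Prod.fst h
        have h2 := congrArg Prod.snd h
        simp only [isUnitCell, Prod.fst_neg, Prod.snd_neg] at *
        omega
    | 2, hg =>
      have hu : isUnitCell (b 0) ∧ isDiagBehind (b 0) (b 1) := by
        by_contra hu
        simp [guideMove, hu, List.range_succ] at hg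
      obtain ⟨hu, hv⟩ := hu
      rw [MakerLegalAt, makerCell_line_two b hu hv]
      simp only [isUnitCell, isDiagBehind] at hu hv
      obtain ⟨hv1, hv2, _⟩ := hv
      constructor
      · intro k hk
        match k, hk with
        | 0, _ =>
          rw [makerCell_line_zero]
          intro h
          have h1 := congrArg Prod.fst h
          have h2 := congrArg Prod.snd h
          simp only [Prod.fst_neg, Prod.snd_neg, Prod.fst_add, Prod.snd_add] at h1 h2
          omega
        | 1, _ =>
          rw [makerCell_line_one b hu]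
          intro h
          have h1 := congrArg Prod.fst h
          have h2 := congrArg Prod.snd h
          simp only [Prod.fst_neg, Prod.snd_neg, Prod.fst_add, Prod.snd_add] at h1 h2
          omega
      · intro k hk
        match k, hk with
        | 0, _ =>
          intro h
          have h1 := congrArg Prod.fst h
          have h2 := congrArg Prod.snd h
          simp only [Prod.fst_neg, Prod.snd_neg, Prod.fst_add, Prod.snd_add] at h1 h2
          omega
        | 1, _ =>
          intro h
          have h1 := congrArg Prod.fst h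
          have h2 := congrArg Prod.snd h
          simp only [Prod.fst_neg, Prod.snd_neg, Prod.fst_add, Prod.snd_add] at h1 h2
          omega
    | m + 3, hg =>
      exfalso
      apply hg
      have : (List.range (m + 3)).map b = b 0 :: b 1 :: b 2 :: (List.range m).map (fun i => b (i + 3)) := by
        rw [List.range_succ_eq_map, List.range_succ_eq_map, List.range_succ_eq_map]
        simp [List.map_map, Function.comp_def]
      rw [this]
      rfl

/-- A symmetry of the board taking `(1, 0)` to `u` and `(-1, 1)` to `v`. -/
theorem exists_sym_of_diag {u v : Cell} (hu : isUnitCell u) (hv : isDiagBehind u v) :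
    ∃ g : Sym, g.act (1, 0) = u ∧ g.act (-1, 1) = v := by
  obtain ⟨u1, u2⟩ := u
  obtain ⟨v1, v2⟩ := v
  simp only [isUnitCell, isDiagBehind] at hu hv
  obtain ⟨hv1, hv2, hdot⟩ := hv
  have hv1' : v1 = 1 ∨ v1 = -1 := by omega
  have hv2' : v2 = 1 ∨ v2 = -1 := by omega
  have hcase : (u2 = 0 ∧ (u1 = 1 ∨ u1 = -1)) ∨ (u1 = 0 ∧ (u2 = 1 ∨ u2 = -1)) := by omega
  rcases hcase with ⟨rfl, hu1⟩ | ⟨rfl, hu2⟩
  · refine ⟨⟨false, u1, v2, hu1, hv2'⟩, ?_, ?_⟩
    · simp [Sym.act, orient]
    · have : v1 = -u1 := by
        rcases hu1 with rfl | rfl <;> simp at hdot <;> omega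
      simp [Sym.act, orient, this]
  · refine ⟨⟨true, v1, u2, hv1', hu2⟩, ?_, ?_⟩
    · simp [Sym.act, orient]
    · have : v2 = -u2 := by
        rcases hu2 with rfl | rfl <;> simp at hdot <;> omega
      simp [Sym.act, orient, this]

/-- A unit cell has a diagonal cell behind it. -/
theorem exists_diag {u : Cell} (hu : isUnitCell u) : ∃ v, isDiagBehind u v := by
  obtain ⟨u1, u2⟩ := u
  simp only [isUnitCell] at hu
  have hcase : (u2 = 0 ∧ (u1 = 1 ∨ u1 = -1)) ∨ (u1 = 0 ∧ (u2 = 1 ∨ u2 = -1)) := by omega
  rcases hcase with ⟨rfl, rfl | rfl⟩ | ⟨rfl, rfl | rfl⟩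
  · exact ⟨(-1, 1), by simp [isDiagBehind]⟩
  · exact ⟨(1, 1), by simp [isDiagBehind]⟩
  · exact ⟨(1, -1), by simp [isDiagBehind]⟩
  · exact ⟨(1, 1), by simp [isDiagBehind]⟩

theorem sym_diag_pos (g : Sym) : isDiagBehind (g.act (1, 0)) (g.act (-1, 1)) := by
  obtain ⟨s, a, b, ha, hb⟩ := g
  rcases ha with rfl | rfl <;> rcases hb with rfl | rfl <;> cases s <;>
    simp [Sym.act, orient, isDiagBehind]

theorem sym_diag_neg (g : Sym) : isDiagBehind (g.act (1, 0)) (g.act (-1, -1)) := by
  obtain ⟨s, a, b, ha, hb⟩ := g
  rcases ha with rfl | rfl <;> rcases hb with rfl | rfl <;> cases s <;>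
    simp [Sym.act, orient, isDiagBehind]

theorem sym_neg (g : Sym) (p : Cell) : g.act (-p) = -(g.act p) := by
  obtain ⟨s, a, b, ha, hb⟩ := g
  cases s <;> ext <;> simp [Sym.act, orient]

theorem sym_add (g : Sym) (p q : Cell) : g.act (p + q) = g.act p + g.act q := orient_add _ _ _ _ _

/-- The main assembly: forcing statements at the three levels give the partial result. -/
theorem line_result {D1 D2 D3 : ℕ}
    (h1 : ∀ r : Cell, 2 ≤ r.1.natAbs + r.2.natAbs → r ≠ (0, 0) → ForcesIn D1 {(0, 0)} {r})
    (h2 : ∀ r : Cell, r ≠ (0, 0) → r ≠ (-1, 0) → r ≠ (1, 0) → r ≠ (-1, 1) → r ≠ (-1, -1) →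
      ForcesIn D2 (insert (-1, 0) {(0, 0)}) (insert r {(1, 0)}))
    (h3 : ∀ r : Cell, r ≠ (0, 0) → r ≠ (-1, 0) → r ≠ (-2, 0) → r ≠ (1, 0) → r ≠ (-1, 1) →
      r ≠ (-3, 0) →
      ForcesIn D3 (insert (-2, 0) (insert (-1, 0) {(0, 0)})) (insert r (insert (-1, 1) {(1, 0)}))) :
    MakerWinsOffOneLine := by
  refine ⟨lineStrategy, ?_, line_legal, ?_⟩
  · show lineMove (lineState []) = _
    simp [lineState, lineMove, guideMove]
  intro b hb
  have hb00 : b 0 ≠ (0, 0) := by
    intro h
    exact (hb 0).1 0 le_rfl (by rw [h, makerCell_line_zero])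
  by_cases hu : isUnitCell (b 0)
  · have hm1 := makerCell_line_one b hu
    by_cases hv : isDiagBehind (b 0) (b 1)
    · have hm2 := makerCell_line_two b hu hv
      obtain ⟨g, hg1, hg2⟩ := exists_sym_of_diag hu hv
      have hg0 := sym_center g
      have hgm1 : g.act (-1, 0) = -(b 0) := by
        rw [← hg1, ← sym_neg]
        simp
      have hgm2 : g.act (-2, 0) = -(b 0 + b 0) := by
        rw [← hg1, ← sym_add, ← sym_neg]
        congr 1
      by_cases hw : b 2 = g.act (-3, 0)
      · right
        obtain ⟨s, a, c, ha, hc⟩ := g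
        refine ⟨s, a, c, ha, hc, hg1.symm, ?_, hg2.symm, ?_, hw⟩
        · rw [hm1]; exact hgm1.symm
        · rw [hm2]; exact hgm2.symm
      · left
        set r := g.inv.act (b 2) with hr
        have hgr : g.act r = b 2 := g.act_inv _
        have hleg := hb 2
        have hne : ∀ p : Cell, g.act p ≠ b 2 → r ≠ p := by
          intro p hp hrp
          apply hp
          rw [← hrp, hgr]
        have hF := h3 r
          (hne _ (by rw [hg0]; intro h; exact hleg.1 0 (by omega) (by rw [← h, makerCell_line_zero])))
          (hne _ (by rw [hgm1]; intro h; exact hleg.1 1 (by omega) (by rw [← h, hm1])))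
          (hne _ (by rw [hgm2]; intro h; exact hleg.1 2 (by omega) (by rw [← h, hm2])))
          (hne _ (by rw [hg1]; intro h; exact hleg.2 0 (by omega) h.symm))
          (hne _ (by rw [hg2]; intro h; exact hleg.2 1 (by omega) h.symm))
          (hne _ (by intro h; exact hw h.symm))
        have hS := ForcesIn.sym g hF
        simp only [Finset.image_insert, Finset.image_singleton, hg0, hgm1, hgm2, hg1, hg2, hgr] at hS
        have hfin : ForcesIn D3 (stN b 3).1 (stN b 3).2.1 := by
          rw [stN_three b hu hv]
          exact hS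
        refine owns_of_forced b hb D3 3 ?_ hfin
        rw [stN_three b hu hv]
        rfl
    · left
      obtain ⟨v0, hv0⟩ := exists_diag hu
      obtain ⟨g, hg1, _⟩ := exists_sym_of_diag hu hv0
      have hg0 := sym_center g
      have hgm1 : g.act (-1, 0) = -(b 0) := by
        rw [← hg1, ← sym_neg]
        simp
      set r := g.inv.act (b 1) with hr
      have hgr : g.act r = b 1 := g.act_inv _
      have hleg := hb 1
      have hne : ∀ p : Cell, g.act p ≠ b 1 → r ≠ p := by
        intro p hp hrp
        apply hp
        rw [← hrp, hgr]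
      have hF := h2 r
        (hne _ (by rw [hg0]; intro h; exact hleg.1 0 (by omega) (by rw [← h, makerCell_line_zero])))
        (hne _ (by rw [hgm1]; intro h; exact hleg.1 1 (by omega) (by rw [← h, hm1])))
        (hne _ (by rw [hg1]; intro h; exact hleg.2 0 (by omega) h.symm))
        (hne _ (by
          intro h
          apply hv
          have := sym_diag_pos g
          rw [h, hg1] at this
          exact this))
        (hne _ (by
          intro h
          apply hv
          have := sym_diag_neg g
          rw [h, hg1] at this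
          exact this))
      have hS := ForcesIn.sym g hF
      simp only [Finset.image_insert, Finset.image_singleton, hg0, hgm1, hg1, hgr] at hS
      have hfin : ForcesIn D2 (stN b 2).1 (stN b 2).2.1 := by
        rw [stN_two b hu]
        exact hS
      refine owns_of_forced b hb D2 2 ?_ hfin
      rw [stN_two b hu]
      simp [guideMove, hv]
  · left
    have hfar : 2 ≤ (b 0).1.natAbs + (b 0).2.natAbs := by
      have h00 : ¬ ((b 0).1.natAbs + (b 0).2.natAbs = 0) := by
        intro h
        apply hb00
        ext
        · simp; omega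
        · simp; omega
      have h01 : ¬ ((b 0).1.natAbs + (b 0).2.natAbs = 1) := hu
      omega
    have hfin : ForcesIn D1 (stN b 1).1 (stN b 1).2.1 := by
      rw [stN_one]
      exact h1 _ hfar hb00
    refine owns_of_forced b hb D1 1 ?_ hfin
    rw [stN_one]
    simp [guideMove, hu]

theorem toF_single {c : ℕ} (hc : c < 225) : toF (1 <<< c) = {cellOf c} := by
  have h := toF_add (m := 0) hc
  have h0 : toF 0 = ∅ := by
    ext x
    simp [mem_toF]
  rw [Nat.zero_or, h0] at h
  simpa using h

theorem not_mem_toF_of_window {r : Cell} (h : ∀ b, b < 225 → cellOf b ≠ r) (m : ℕ) : r ∉ toF m := by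
  intro hr
  obtain ⟨b, hb, _, he⟩ := mem_toF.mp hr
  exact h b hb he

/-- The covering check for a position with Maker mask `M` and Breaker mask `B`: every window cell
is excepted, or occupied, or harmless for a certificate, or the reply of a certificate. -/
def coverLevel (M B : ℕ) (ex : ℕ → Bool) (classes : List (ℕ × ℕ)) : Bool :=
  classes ≠ [] ∧ (List.range 225).all (fun b => ex b || M.testBit b || B.testBit b ||
    classes.any (fun c => !(c.2.testBit b) || b == c.1))

/-- From certificates to a forcing statement for all the replies not excepted. -/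
theorem forces_level (M B : ℕ) (ex : ℕ → Bool) (classes : List (ℕ × ℕ))
    (hp : ∀ c ∈ classes, ∃ d, ProvedIn d M (B ||| (1 <<< c.1)) c.2)
    (hr : ∀ c ∈ classes, c.1 < 225)
    (hcov : coverLevel M B ex classes = true) :
    ∃ D, ∀ r : Cell, (∀ b, b < 225 → cellOf b = r → ex b = false) → r ∉ toF M → r ∉ toF B →
      ForcesIn D (toF M) (insert r (toF B)) := by
  obtain ⟨D, hD⟩ := exists_uniform (P := fun d (c : ℕ × ℕ) =>
    ProvedIn d M (B ||| (1 <<< c.1)) c.2) (fun h hd => h.mono hd) classes hp
  simp only [coverLevel, Bool.and_eq_true, decide_eq_true_eq, List.all_eq_true, List.mem_range,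
    Bool.or_eq_true, beq_iff_eq, List.any_eq_true, Bool.not_eq_true'] at hcov
  obtain ⟨hne, hcov⟩ := hcov
  refine ⟨D, ?_⟩
  intro r hex hrM hrB
  have houtside : ∀ c ∈ classes, r ∉ toF c.2 → ForcesIn D (toF M) (insert r (toF B)) := by
    intro c hc hrZ
    have h1 := hD c hc {r} (by
      intro x hx
      rw [Finset.mem_singleton] at hx
      rw [hx]
      exact hrZ)
    refine h1.anti_B ?_
    intro y hy
    rw [Finset.mem_insert] at hy
    rcases hy with rfl | hy
    · exact Finset.mem_union_right _ (Finset.mem_singleton_self _)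
    · exact Finset.mem_union_left _ (toF_subset_or_left _ _ hy)
  by_cases hwin : ∃ b, b < 225 ∧ cellOf b = r
  · obtain ⟨b, hb, rfl⟩ := hwin
    rcases hcov b hb with ((h | h) | h) | ⟨c, hc, ho⟩
    · rw [hex b hb rfl] at h
      exact absurd h (by simp)
    · exact absurd ((cellOf_mem_toF hb).mpr h) hrM
    · exact absurd ((cellOf_mem_toF hb).mpr h) hrB
    · rcases ho with ho | ho
      · apply houtside c hc
        rw [cellOf_mem_toF hb, ho]
        simp
      · have h1 := hD c hc ∅ (by simp)
        rw [Finset.union_empty, ← ho, toF_add hb] at h1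
        exact h1
  · obtain ⟨c, hc⟩ := List.exists_mem_of_ne_nil classes hne
    exact houtside c hc (not_mem_toF_of_window (fun b hb he => hwin ⟨b, hb, he⟩) _)

end Vale.Agent.Lib.P062
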