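import Vale.Agent.Lib.P062.Line
import Vale.Agent.Lib.P062.Certs.Cert_L2_null
import Vale.Agent.Lib.P062.Certs.Cert_L2_rm1_m2
import Vale.Agent.Lib.P062.Certs.Cert_L2_rm1_2
import Vale.Agent.Lib.P062.Certs.Cert_L2_rm2_m1
import Vale.Agent.Lib.P062.Certs.Cert_L2_rm2_m2
import Vale.Agent.Lib.P062.Certs.Cert_L2_rm2_m3
import Vale.Agent.Lib.P062.Certs.Cert_L2_rm2_0
import Vale.Agent.Lib.P062.Certs.Cert_L2_rm2_1
import Vale.Agent.Lib.P062.Certs.Cert_L2_rm2_2
import Vale.Agent.Lib.P062.Certs.Cert_L2_rm2_3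
import Vale.Agent.Lib.P062.Certs.Cert_L2_rm3_m1
import Vale.Agent.Lib.P062.Certs.Cert_L2_rm3_m2
import Vale.Agent.Lib.P062.Certs.Cert_L2_rm3_0
import Vale.Agent.Lib.P062.Certs.Cert_L2_rm3_1
import Vale.Agent.Lib.P062.Certs.Cert_L2_rm3_2
import Vale.Agent.Lib.P062.Certs.Cert_L2_rm4_m1
import Vale.Agent.Lib.P062.Certs.Cert_L2_rm4_m2
import Vale.Agent.Lib.P062.Certs.Cert_L2_rm4_1
import Vale.Agent.Lib.P062.Certs.Cert_L2_rm4_2
import Vale.Agent.Lib.P062.Certs.Cert_L2_r0_m1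
import Vale.Agent.Lib.P062.Certs.Cert_L2_r0_m2
import Vale.Agent.Lib.P062.Certs.Cert_L2_r0_m3
import Vale.Agent.Lib.P062.Certs.Cert_L2_r0_1
import Vale.Agent.Lib.P062.Certs.Cert_L2_r0_2
import Vale.Agent.Lib.P062.Certs.Cert_L2_r0_3
import Vale.Agent.Lib.P062.Certs.Cert_L2_r1_m1
import Vale.Agent.Lib.P062.Certs.Cert_L2_r1_m2
import Vale.Agent.Lib.P062.Certs.Cert_L2_r1_1
import Vale.Agent.Lib.P062.Certs.Cert_L2_r1_2
import Vale.Agent.Lib.P062.Certs.Cert_L2_r2_m1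
import Vale.Agent.Lib.P062.Certs.Cert_L2_r2_1

/-!
The certified replies in one position of the play, with the covering check.
-/

namespace Vale.Agent.Lib.P062

/-- The certified replies and the zones of their proofs. -/
def L2_classes : List (ℕ × ℕ) :=
  [(113, L2_null_zone),
    (81, L2_rm1_m2_zone),
    (141, L2_rm1_2_zone),
    (95, L2_rm2_m1_zone),
    (80, L2_rm2_m2_zone),
    (65, L2_rm2_m3_zone),
    (110, L2_rm2_0_zone),
    (125, L2_rm2_1_zone),
    (140, L2_rm2_2_zone),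
    (155, L2_rm2_3_zone),
    (94, L2_rm3_m1_zone),
    (79, L2_rm3_m2_zone),
    (109, L2_rm3_0_zone),
    (124, L2_rm3_1_zone),
    (139, L2_rm3_2_zone),
    (93, L2_rm4_m1_zone),
    (78, L2_rm4_m2_zone),
    (123, L2_rm4_1_zone),
    (138, L2_rm4_2_zone),
    (97, L2_r0_m1_zone),
    (82, L2_r0_m2_zone),
    (67, L2_r0_m3_zone),
    (127, L2_r0_1_zone),
    (142, L2_r0_2_zone),
    (157, L2_r0_3_zone),
    (98, L2_r1_m1_zone),
    (83, L2_r1_m2_zone),
    (128, L2_r1_1_zone),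
    (143, L2_r1_2_zone),
    (99, L2_r2_m1_zone),
    (129, L2_r2_1_zone)]

/-- The excepted replies. -/
def L2_ex (b : ℕ) : Bool := b == 126 || b == 96

theorem L2_cover : coverLevel (1 <<< 112 ||| 1 <<< 111) (1 <<< 113) L2_ex L2_classes = true := by
  decide +kernel

theorem L2_level : ∃ D, ∀ r : Cell, (∀ b, b < 225 → cellOf b = r → L2_ex b = false) →
    r ∉ toF (1 <<< 112 ||| 1 <<< 111) → r ∉ toF (1 <<< 113) →
    ForcesIn D (toF (1 <<< 112 ||| 1 <<< 111)) (insert r (toF (1 <<< 113))) := by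
  refine forces_level _ _ L2_ex L2_classes ?_ ?_ L2_cover
  · intro c hc
    simp only [L2_classes, List.mem_cons, List.not_mem_nil, or_false] at hc
    rcases hc with rfl | rfl | rfl | rfl | rfl | rfl | rfl | rfl | rfl | rfl | rfl | rfl | rfl | rfl | rfl | rfl | rfl | rfl | rfl | rfl | rfl | rfl | rfl | rfl | rfl | rfl | rfl | rfl | rfl | rfl | rfl
    · exact L2_null_ok
    · exact L2_rm1_m2_ok
    · exact L2_rm1_2_ok
    · exact L2_rm2_m1_ok
    · exact L2_rm2_m2_ok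
    · exact L2_rm2_m3_ok
    · exact L2_rm2_0_ok
    · exact L2_rm2_1_ok
    · exact L2_rm2_2_ok
    · exact L2_rm2_3_ok
    · exact L2_rm3_m1_ok
    · exact L2_rm3_m2_ok
    · exact L2_rm3_0_ok
    · exact L2_rm3_1_ok
    · exact L2_rm3_2_ok
    · exact L2_rm4_m1_ok
    · exact L2_rm4_m2_ok
    · exact L2_rm4_1_ok
    · exact L2_rm4_2_ok
    · exact L2_r0_m1_ok
    · exact L2_r0_m2_ok
    · exact L2_r0_m3_ok
    · exact L2_r0_1_ok
    · exact L2_r0_2_ok
    · exact L2_r0_3_ok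
    · exact L2_r1_m1_ok
    · exact L2_r1_m2_ok
    · exact L2_r1_1_ok
    · exact L2_r1_2_ok
    · exact L2_r2_m1_ok
    · exact L2_r2_1_ok
  · intro c hc
    simp only [L2_classes, List.mem_cons, List.not_mem_nil, or_false] at hc
    rcases hc with rfl | rfl | rfl | rfl | rfl | rfl | rfl | rfl | rfl | rfl | rfl | rfl | rfl | rfl | rfl | rfl | rfl | rfl | rfl | rfl | rfl | rfl | rfl | rfl | rfl | rfl | rfl | rfl | rfl | rfl | rfl <;> decide

theorem toF_L2M : toF (1 <<< 112 ||| 1 <<< 111) = insert (-1, 0) {(0, 0)} := by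
  rw [toF_add (c := 111) (by omega), toF_single (c := 112) (by omega)]
  simp [cellOf]

theorem toF_L2B : toF (1 <<< 113) = {(1, 0)} := by
  rw [toF_single (c := 113) (by omega)]
  simp [cellOf]

theorem L2_forces : ∃ D, ∀ r : Cell, r ≠ (0, 0) → r ≠ (-1, 0) → r ≠ (1, 0) → r ≠ (-1, 1) →
    r ≠ (-1, -1) → ForcesIn D (insert (-1, 0) {(0, 0)}) (insert r {(1, 0)}) := by
  obtain ⟨D, hD⟩ := L2_level
  refine ⟨D, ?_⟩
  intro r h0 h1 h2 h3 h4
  have := hD r ?_ ?_ ?_
  · rw [toF_L2M, toF_L2B] at this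
    exact this
  · intro b _ hb
    by_contra hex
    have hex' : b = 126 ∨ b = 96 := by
      simpa only [L2_ex, Bool.not_eq_false, Bool.or_eq_true, beq_iff_eq] using hex
    rcases hex' with rfl | rfl
    · apply h3
      rw [← hb]
      simp [cellOf]
    · apply h4
      rw [← hb]
      simp [cellOf]
  · rw [toF_L2M]
    simp [h0, h1]
  · rw [toF_L2B]
    simp [h2]


end Vale.Agent.Lib.P062
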