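import Vale.Agent.Lib.P062.Line
import Vale.Agent.Lib.P062.Certs.Cert_L3_null
import Vale.Agent.Lib.P062.Certs.Cert_L3_rm1_m1
import Vale.Agent.Lib.P062.Certs.Cert_L3_rm2_m1
import Vale.Agent.Lib.P062.Certs.Cert_L3_rm3_m1
import Vale.Agent.Lib.P062.Certs.Cert_L3_rm3_1
import Vale.Agent.Lib.P062.Certs.Cert_L3_rm4_m1
import Vale.Agent.Lib.P062.Certs.Cert_L3_rm4_0
import Vale.Agent.Lib.P062.Certs.Cert_L3_rm4_1
import Vale.Agent.Lib.P062.Certs.Cert_L3_r0_m1
import Vale.Agent.Lib.P062.Certs.Cert_L3_r0_1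

/-!
The certified replies in one position of the play, with the covering check.
-/

namespace Vale.Agent.Lib.P062

/-- The certified replies and the zones of their proofs. -/
def L3_classes : List (ℕ × ℕ) :=
  [(113, L3_null_zone),
    (96, L3_rm1_m1_zone),
    (95, L3_rm2_m1_zone),
    (94, L3_rm3_m1_zone),
    (124, L3_rm3_1_zone),
    (93, L3_rm4_m1_zone),
    (108, L3_rm4_0_zone),
    (123, L3_rm4_1_zone),
    (97, L3_r0_m1_zone),
    (127, L3_r0_1_zone)]

/-- The excepted replies. -/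
def L3_ex (b : ℕ) : Bool := b == 109

theorem L3_cover : coverLevel (1 <<< 112 ||| 1 <<< 111 ||| 1 <<< 110) (1 <<< 113 ||| 1 <<< 126) L3_ex L3_classes = true := by
  decide +kernel

theorem L3_level : ∃ D, ∀ r : Cell, (∀ b, b < 225 → cellOf b = r → L3_ex b = false) →
    r ∉ toF (1 <<< 112 ||| 1 <<< 111 ||| 1 <<< 110) → r ∉ toF (1 <<< 113 ||| 1 <<< 126) →
    ForcesIn D (toF (1 <<< 112 ||| 1 <<< 111 ||| 1 <<< 110)) (insert r (toF (1 <<< 113 ||| 1 <<< 126))) := by
  refine forces_level _ _ L3_ex L3_classes ?_ ?_ L3_cover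
  · intro c hc
    simp only [L3_classes, List.mem_cons, List.not_mem_nil, or_false] at hc
    rcases hc with rfl | rfl | rfl | rfl | rfl | rfl | rfl | rfl | rfl | rfl
    · exact L3_null_ok
    · exact L3_rm1_m1_ok
    · exact L3_rm2_m1_ok
    · exact L3_rm3_m1_ok
    · exact L3_rm3_1_ok
    · exact L3_rm4_m1_ok
    · exact L3_rm4_0_ok
    · exact L3_rm4_1_ok
    · exact L3_r0_m1_ok
    · exact L3_r0_1_ok
  · intro c hc
    simp only [L3_classes, List.mem_cons, List.not_mem_nil, or_false] at hc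
    rcases hc with rfl | rfl | rfl | rfl | rfl | rfl | rfl | rfl | rfl | rfl <;> decide

theorem toF_L3M : toF (1 <<< 112 ||| 1 <<< 111 ||| 1 <<< 110) =
    insert (-2, 0) (insert (-1, 0) {(0, 0)}) := by
  rw [toF_add (c := 110) (by omega), toF_add (c := 111) (by omega),
    toF_single (c := 112) (by omega)]
  simp [cellOf]

theorem toF_L3B : toF (1 <<< 113 ||| 1 <<< 126) = insert (-1, 1) {(1, 0)} := by
  rw [toF_add (c := 126) (by omega), toF_single (c := 113) (by omega)]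
  simp [cellOf]

theorem L3_forces : ∃ D, ∀ r : Cell, r ≠ (0, 0) → r ≠ (-1, 0) → r ≠ (-2, 0) → r ≠ (1, 0) →
    r ≠ (-1, 1) → r ≠ (-3, 0) →
    ForcesIn D (insert (-2, 0) (insert (-1, 0) {(0, 0)})) (insert r (insert (-1, 1) {(1, 0)})) := by
  obtain ⟨D, hD⟩ := L3_level
  refine ⟨D, ?_⟩
  intro r h0 h1 h2 h3 h4 h5
  have := hD r ?_ ?_ ?_
  · rw [toF_L3M, toF_L3B] at this
    exact this
  · intro b _ hb
    by_contra hex
    have hex' : b = 109 := by
      simpa only [L3_ex, Bool.not_eq_false, beq_iff_eq] using hex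
    subst hex'
    apply h5
    rw [← hb]
    simp [cellOf]
  · rw [toF_L3M]
    simp [h0, h1, h2]
  · rw [toF_L3B]
    simp [h3, h4]


end Vale.Agent.Lib.P062
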