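import Vale.Agent.Lib.P062.Game

/-!
Bitmask positions in a finite window and a table checker for forcing certificates.
-/

namespace Vale.Agent.Lib.P062

/-- Window width. -/
def W : ℕ := 15

/-- The board cell of a window bit. The window is centred at the origin. -/
def cellOf (b : ℕ) : Cell := (((b % 15 : ℕ) : ℤ) - 7, ((b / 15 : ℕ) : ℤ) - 7)

theorem cellOf_inj {a b : ℕ} (h : cellOf a = cellOf b) : a = b := by
  simp only [cellOf, Prod.mk.injEq] at h
  obtain ⟨h1, h2⟩ := h
  have h1' : a % 15 = b % 15 := by omega
  have h2' : a / 15 = b / 15 := by omega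
  omega

/-- The set of cells of a mask. -/
def toF (m : ℕ) : Finset Cell :=
  ((Finset.range 225).filter (fun b => m.testBit b = true)).image cellOf

theorem mem_toF {m : ℕ} {x : Cell} :
    x ∈ toF m ↔ ∃ b, b < 225 ∧ m.testBit b = true ∧ cellOf b = x := by
  simp only [toF, Finset.mem_image, Finset.mem_filter, Finset.mem_range]
  constructor
  · rintro ⟨b, ⟨h1, h2⟩, h3⟩
    exact ⟨b, h1, h2, h3⟩
  · rintro ⟨b, h1, h2, h3⟩
    exact ⟨b, ⟨h1, h2⟩, h3⟩

theorem cellOf_mem_toF {m b : ℕ} (hb : b < 225) : cellOf b ∈ toF m ↔ m.testBit b = true := by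
  rw [mem_toF]
  constructor
  · rintro ⟨a, _, h2, h3⟩
    rw [← cellOf_inj h3]; exact h2
  · intro h
    exact ⟨b, hb, h, rfl⟩

theorem toF_mono {a b : ℕ} (h : (a &&& b) = a) : toF a ⊆ toF b := by
  intro x hx
  rw [mem_toF] at hx ⊢
  obtain ⟨i, h1, h2, h3⟩ := hx
  refine ⟨i, h1, ?_, h3⟩
  rw [← h, Nat.testBit_and] at h2
  simp only [Bool.and_eq_true] at h2
  exact h2.2

/-- Adding a stone to a mask. -/
theorem toF_add {m c : ℕ} (hc : c < 225) : toF (m ||| (1 <<< c)) = insert (cellOf c) (toF m) := by
  ext x
  rw [Finset.mem_insert, mem_toF, mem_toF]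
  constructor
  · rintro ⟨b, h1, h2, h3⟩
    rw [Nat.testBit_or, Bool.or_eq_true] at h2
    rcases h2 with h2 | h2
    · exact Or.inr ⟨b, h1, h2, h3⟩
    · left
      have hbc : b = c := by
        rw [Nat.one_shiftLeft, Nat.testBit_two_pow] at h2
        simpa [eq_comm] using h2
      rw [← h3, hbc]
  · rintro (h | ⟨b, h1, h2, h3⟩)
    · refine ⟨c, hc, ?_, h.symm⟩
      rw [Nat.testBit_or, Bool.or_eq_true]
      right
      rw [Nat.one_shiftLeft, Nat.testBit_two_pow]
      simp
    · refine ⟨b, h1, ?_, h3⟩
      rw [Nat.testBit_or, Bool.or_eq_true]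
      exact Or.inl h2

/-- The eight orientations with the offsets of the six cells in a bounding box, listed in the order
of `snaky`. Each entry records `swap, sx, sy`, the shift of the box and the six Nat offsets. -/
def orientTable : List (Bool × ℤ × ℤ × ℤ × ℤ × List (ℕ × ℕ)) :=
  [ (false, 1, 1, 0, 0, [(0,0),(1,0),(2,0),(3,0),(3,1),(4,1)]),
    (false, -1, 1, 4, 0, [(4,0),(3,0),(2,0),(1,0),(1,1),(0,1)]),
    (false, 1, -1, 0, 1, [(0,1),(1,1),(2,1),(3,1),(3,0),(4,0)]),
    (false, -1, -1, 4, 1, [(4,1),(3,1),(2,1),(1,1),(1,0),(0,0)]),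
    (true, 1, 1, 0, 0, [(0,0),(0,1),(0,2),(0,3),(1,3),(1,4)]),
    (true, -1, 1, 1, 0, [(1,0),(1,1),(1,2),(1,3),(0,3),(0,4)]),
    (true, 1, -1, 0, 4, [(0,4),(0,3),(0,2),(0,1),(1,1),(1,0)]),
    (true, -1, -1, 1, 4, [(1,4),(1,3),(1,2),(1,1),(0,1),(0,0)]) ]

/-- One offset lies in the window and its bit is set. -/
def offOK (m x y : ℕ) (d : ℕ × ℕ) : Bool :=
  decide (x + d.1 < 15) && decide (y + d.2 < 15) && m.testBit (x + d.1 + 15 * (y + d.2))

/-- A copy in orientation `o` with bounding box corner `(x, y)` lies in the mask `m`. -/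
def lineOK (m x y o : ℕ) : Bool :=
  match orientTable[o]? with
  | some (_, _, _, _, _, ds) => ds.all (offOK m x y)
  | none => false

theorem cellOf_xy {x y : ℕ} (hx : x < 15) (_hy : y < 15) :
    cellOf (x + 15 * y) = ((x : ℤ) - 7, (y : ℤ) - 7) := by
  have h1 : (x + 15 * y) % 15 = x := by omega
  have h2 : (x + 15 * y) / 15 = y := by omega
  simp [cellOf, h1, h2]

theorem offOK_mem {m x y : ℕ} {d : ℕ × ℕ} (h : offOK m x y d = true) :
    (((x + d.1 : ℕ) : ℤ) - 7, ((y + d.2 : ℕ) : ℤ) - 7) ∈ toF m := by
  simp only [offOK, Bool.and_eq_true, decide_eq_true_eq] at h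
  obtain ⟨⟨h1, h2⟩, h3⟩ := h
  rw [← cellOf_xy h1 h2, cellOf_mem_toF (by omega)]
  exact h3

theorem lineOK_owns {m x y o : ℕ} (h : lineOK m x y o = true) : OwnsCopy (↑(toF m) : Set Cell) := by
  unfold lineOK at h
  have key : ∀ {s : Bool} {sx sy ax ay : ℤ} {ds : List (ℕ × ℕ)},
      (sx = 1 ∨ sx = -1) → (sy = 1 ∨ sy = -1) →
      (∀ p ∈ snaky, ∃ d ∈ ds, (d.1 : ℤ) - ax = (orient s sx sy p).1 ∧
        (d.2 : ℤ) - ay = (orient s sx sy p).2) →
      ds.all (offOK m x y) = true → OwnsCopy (↑(toF m) : Set Cell) := by
    intro s sx sy ax ay ds hx hy hp hall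
    refine ⟨(((x : ℤ) - 7 + ax), ((y : ℤ) - 7 + ay)), s, sx, sy, hx, hy, ?_⟩
    intro p hp'
    obtain ⟨d, hd, h1, h2⟩ := hp p hp'
    have hok := List.all_eq_true.mp hall d hd
    have hmem := offOK_mem hok
    have : ((x : ℤ) - 7 + ax, (y : ℤ) - 7 + ay) + orient s sx sy p =
        (((x + d.1 : ℕ) : ℤ) - 7, ((y + d.2 : ℕ) : ℤ) - 7) := by
      ext
      · simp only [Prod.fst_add]; push_cast; omega
      · simp only [Prod.snd_add]; push_cast; omega
    rw [this]
    exact_mod_cast hmem
  rcases o with _ | _ | _ | _ | _ | _ | _ | _ | o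
  all_goals simp only [orientTable, List.getElem?_cons_zero, List.getElem?_cons_succ] at h
  · exact key (s := false) (sx := 1) (sy := 1) (ax := 0) (ay := 0) (by simp) (by simp) (by
      intro p hp; simp only [snaky, List.mem_cons, List.not_mem_nil, or_false] at hp
      rcases hp with rfl | rfl | rfl | rfl | rfl | rfl <;> simp [orient]) h
  · exact key (s := false) (sx := -1) (sy := 1) (ax := 4) (ay := 0) (by simp) (by simp) (by
      intro p hp; simp only [snaky, List.mem_cons, List.not_mem_nil, or_false] at hp
      rcases hp with rfl | rfl | rfl | rfl | rfl | rfl <;> simp [orient]) h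
  · exact key (s := false) (sx := 1) (sy := -1) (ax := 0) (ay := 1) (by simp) (by simp) (by
      intro p hp; simp only [snaky, List.mem_cons, List.not_mem_nil, or_false] at hp
      rcases hp with rfl | rfl | rfl | rfl | rfl | rfl <;> simp [orient]) h
  · exact key (s := false) (sx := -1) (sy := -1) (ax := 4) (ay := 1) (by simp) (by simp) (by
      intro p hp; simp only [snaky, List.mem_cons, List.not_mem_nil, or_false] at hp
      rcases hp with rfl | rfl | rfl | rfl | rfl | rfl <;> simp [orient]) h
  · exact key (s := true) (sx := 1) (sy := 1) (ax := 0) (ay := 0) (by simp) (by simp) (by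
      intro p hp; simp only [snaky, List.mem_cons, List.not_mem_nil, or_false] at hp
      rcases hp with rfl | rfl | rfl | rfl | rfl | rfl <;> simp [orient]) h
  · exact key (s := true) (sx := -1) (sy := 1) (ax := 1) (ay := 0) (by simp) (by simp) (by
      intro p hp; simp only [snaky, List.mem_cons, List.not_mem_nil, or_false] at hp
      rcases hp with rfl | rfl | rfl | rfl | rfl | rfl <;> simp [orient]) h
  · exact key (s := true) (sx := 1) (sy := -1) (ax := 0) (ay := 4) (by simp) (by simp) (by
      intro p hp; simp only [snaky, List.mem_cons, List.not_mem_nil, or_false] at hp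
      rcases hp with rfl | rfl | rfl | rfl | rfl | rfl <;> simp [orient]) h
  · exact key (s := true) (sx := -1) (sy := -1) (ax := 1) (ay := 4) (by simp) (by simp) (by
      intro p hp; simp only [snaky, List.mem_cons, List.not_mem_nil, or_false] at hp
      rcases hp with rfl | rfl | rfl | rfl | rfl | rfl <;> simp [orient]) h
  · simp at h

/-- Forcing with a zone: Breaker stones outside the zone `Z` are harmless. -/
def ProvedIn (d M B Z : ℕ) : Prop :=
  ∀ X : Finset Cell, (∀ x ∈ X, x ∉ toF Z) → ForcesIn d (toF M) (toF B ∪ X)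

theorem ProvedIn.mono {d d' M B Z : ℕ} (h : ProvedIn d M B Z) (hd : d ≤ d') : ProvedIn d' M B Z :=
  fun X hX => (h X hX).mono_d hd

theorem toF_subset_or_left (a b : ℕ) : toF a ⊆ toF (a ||| b) := by
  intro x hx
  rw [mem_toF] at hx ⊢
  obtain ⟨i, h1, h2, h3⟩ := hx
  refine ⟨i, h1, ?_, h3⟩
  rw [Nat.testBit_or, h2]
  rfl

theorem toF_subset_or_right (a b : ℕ) : toF b ⊆ toF (a ||| b) := by
  intro x hx
  rw [mem_toF] at hx ⊢
  obtain ⟨i, h1, h2, h3⟩ := hx
  refine ⟨i, h1, ?_, h3⟩
  rw [Nat.testBit_or, h2]
  simp

theorem mem_toF_and {a b : ℕ} {x : Cell} (ha : x ∈ toF a) (hb : x ∈ toF b) : x ∈ toF (a &&& b) := by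
  rw [mem_toF] at ha hb ⊢
  obtain ⟨i, h1, h2, h3⟩ := ha
  obtain ⟨j, _, h5, h6⟩ := hb
  have : i = j := cellOf_inj (h3.trans h6.symm)
  subst this
  refine ⟨i, h1, ?_, h3⟩
  rw [Nat.testBit_and, h2, h5]
  rfl

/-- Every reply is handled by some kid. -/
def Handles (D M' B A Zall : ℕ) : Prop :=
  ∀ (r : Cell) (X : Finset Cell), r ∉ toF A → (∀ x ∈ X, x ∉ toF Zall) →
    ForcesIn D (toF M') (insert r (toF B ∪ X))

theorem Handles.mono {D D' M' B A Z : ℕ} (h : Handles D M' B A Z) (hd : D ≤ D') :
    Handles D' M' B A Z :=
  fun r X h1 h2 => (h r X h1 h2).mono_d hd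

theorem handles_of_proved {D M' B Z : ℕ} (h : ProvedIn D M' B Z) : Handles D M' B Z Z := by
  intro r X hr hX
  have h1 := h (insert r X) (by
    intro x hx
    rcases Finset.mem_insert.mp hx with rfl | hx
    · exact hr
    · exact hX x hx)
  refine h1.anti_B ?_
  intro y hy
  rcases Finset.mem_insert.mp hy with rfl | hy
  · exact Finset.mem_union_right _ (Finset.mem_insert_self _ _)
  · rcases Finset.mem_union.mp hy with hy | hy
    · exact Finset.mem_union_left _ hy
    · exact Finset.mem_union_right _ (Finset.mem_insert_of_mem hy)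

theorem handles_step {D M' B A Z s Dj Zj : ℕ} (h : Handles D M' B A Z)
    (hj : ProvedIn Dj M' (B ||| (1 <<< s)) Zj) :
    Handles (max D Dj) M' B (A &&& Zj) (Z ||| Zj) := by
  intro r X hr hX
  by_cases hA : r ∈ toF A
  · -- the new kid does not use r
    have hZ : r ∉ toF Zj := fun h' => hr (mem_toF_and hA h')
    have h1 := hj (insert r X) (by
      intro x hx
      rcases Finset.mem_insert.mp hx with rfl | hx
      · exact hZ
      · exact fun h' => hX x hx (toF_subset_or_right _ _ h'))
    refine (h1.anti_B ?_).mono_d (le_max_right _ _)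
    intro y hy
    rcases Finset.mem_insert.mp hy with rfl | hy
    · exact Finset.mem_union_right _ (Finset.mem_insert_self _ _)
    · rcases Finset.mem_union.mp hy with hy | hy
      · exact Finset.mem_union_left _ (toF_subset_or_left _ _ hy)
      · exact Finset.mem_union_right _ (Finset.mem_insert_of_mem hy)
  · exact (h r X hA (fun x hx h' => hX x hx (toF_subset_or_left _ _ h'))).mono_d (le_max_left _ _)

/-- The eight line masks, for a corner at bit `0` of the window. -/
def baseMask : ℕ → ℕ
  | 0 => 1 + 2 + 4 + 8 + 2 ^ 18 + 2 ^ 19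
  | 1 => 16 + 8 + 4 + 2 + 2 ^ 16 + 2 ^ 15
  | 2 => 2 ^ 15 + 2 ^ 16 + 2 ^ 17 + 2 ^ 18 + 8 + 16
  | 3 => 2 ^ 19 + 2 ^ 18 + 2 ^ 17 + 2 ^ 16 + 2 + 1
  | 4 => 1 + 2 ^ 15 + 2 ^ 30 + 2 ^ 45 + 2 ^ 46 + 2 ^ 61
  | 5 => 2 + 2 ^ 16 + 2 ^ 31 + 2 ^ 46 + 2 ^ 45 + 2 ^ 60
  | 6 => 2 ^ 60 + 2 ^ 45 + 2 ^ 30 + 2 ^ 15 + 2 ^ 16 + 2
  | 7 => 2 ^ 61 + 2 ^ 46 + 2 ^ 31 + 2 ^ 16 + 2 ^ 15 + 1
  | _ => 0

/-- Width of the bounding box of orientation `o`. -/
def boxW (o : ℕ) : ℕ := bif Nat.ble 4 o then 2 else 5

/-- Height of the bounding box of orientation `o`. -/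
def boxH (o : ℕ) : ℕ := bif Nat.ble 4 o then 5 else 2

/-- Fast test that the copy of orientation `o` with corner bit `corner` lies in the mask `m`. -/
def lineQ (m corner o : ℕ) : Bool :=
  Nat.ble o 7 && (Nat.ble (Nat.add (Nat.mod corner 15) (boxW o)) 15) &&
  (Nat.ble (Nat.add (Nat.div corner 15) (boxH o)) 15) &&
  (Nat.beq (Nat.land m (Nat.shiftLeft (baseMask o) corner)) (Nat.shiftLeft (baseMask o) corner))

theorem line_bit {m corner base off : ℕ} (h : Nat.beq (Nat.land m (Nat.shiftLeft base corner))
    (Nat.shiftLeft base corner) = true) (hb : base.testBit off = true) :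
    m.testBit (corner + off) = true := by
  have h1 : (m &&& (base <<< corner)) = base <<< corner := Nat.eq_of_beq_eq_true h
  have h2 : (base <<< corner).testBit (corner + off) = true := by
    rw [Nat.testBit_shiftLeft]
    simp [hb]
  rw [← h1, Nat.testBit_and, Bool.and_eq_true] at h2
  exact h2.1

theorem all_offOK {m corner base w h : ℕ} {ds : List (ℕ × ℕ)}
    (h1 : corner % 15 + w ≤ 15) (h2 : corner / 15 + h ≤ 15)
    (hb : Nat.beq (Nat.land m (Nat.shiftLeft base corner)) (Nat.shiftLeft base corner) = true)
    (hds : ds.all (fun d => Nat.ble (d.1 + 1) w && Nat.ble (d.2 + 1) h &&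
      base.testBit (d.1 + 15 * d.2)) = true) :
    ds.all (offOK m (corner % 15) (corner / 15)) = true := by
  rw [List.all_eq_true] at hds ⊢
  intro d hd
  have := hds d hd
  simp only [Bool.and_eq_true] at this
  obtain ⟨⟨h3, h4⟩, h5⟩ := this
  have h3' : d.1 + 1 ≤ w := Nat.le_of_ble_eq_true h3
  have h4' : d.2 + 1 ≤ h := Nat.le_of_ble_eq_true h4
  have h6 := line_bit hb h5
  have h7 : corner + (d.1 + 15 * d.2) = corner % 15 + d.1 + 15 * (corner / 15 + d.2) := by
    have := Nat.mod_add_div corner 15
    omega
  rw [h7] at h6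
  simp only [offOK, Bool.and_eq_true, decide_eq_true_eq]
  exact ⟨⟨by omega, by omega⟩, h6⟩

theorem lineQ_sound {m corner o : ℕ} (h : lineQ m corner o = true) :
    lineOK m (corner % 15) (corner / 15) o = true := by
  simp only [lineQ, Bool.and_eq_true] at h
  obtain ⟨⟨⟨h0, h1⟩, h2⟩, h3⟩ := h
  have h0' : o ≤ 7 := Nat.le_of_ble_eq_true h0
  have h1' : corner % 15 + boxW o ≤ 15 := Nat.le_of_ble_eq_true h1
  have h2' : corner / 15 + boxH o ≤ 15 := Nat.le_of_ble_eq_true h2
  rcases o with _ | _ | _ | _ | _ | _ | _ | _ | o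
  · exact all_offOK h1' h2' h3 (by decide +kernel)
  · exact all_offOK h1' h2' h3 (by decide +kernel)
  · exact all_offOK h1' h2' h3 (by decide +kernel)
  · exact all_offOK h1' h2' h3 (by decide +kernel)
  · exact all_offOK h1' h2' h3 (by decide +kernel)
  · exact all_offOK h1' h2' h3 (by decide +kernel)
  · exact all_offOK h1' h2' h3 (by decide +kernel)
  · exact all_offOK h1' h2' h3 (by decide +kernel)
  · omega

/-- The cell `c` is in the window and unclaimed. -/
def freeQ (M B c : ℕ) : Bool :=
  Nat.ble c 224 && Nat.beq (Nat.land (Nat.shiftRight (Nat.lor M B) c) 1) 0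

theorem freeQ_sound {M B c : ℕ} (h : freeQ M B c = true) :
    c < 225 ∧ M.testBit c = false ∧ B.testBit c = false := by
  simp only [freeQ, Bool.and_eq_true] at h
  obtain ⟨h1, h2⟩ := h
  have h1' : c ≤ 224 := Nat.le_of_ble_eq_true h1
  have h2' : (M ||| B) >>> c &&& 1 = 0 := Nat.eq_of_beq_eq_true h2
  have h3 : (M ||| B).testBit c = false := by
    unfold Nat.testBit
    rw [Nat.and_comm, h2']
    rfl
  rw [Nat.testBit_or, Bool.or_eq_false_iff] at h3
  exact ⟨by omega, h3.1, h3.2⟩

/-- The move `c` completes a copy. -/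
def winQ (M B c corner o : ℕ) : Bool :=
  freeQ M B c && lineQ (Nat.lor M (Nat.shiftLeft 1 c)) corner o

theorem winQ_sound {M B c corner o : ℕ} (h : winQ M B c corner o = true) :
    ProvedIn 1 M B (1 <<< c) := by
  simp only [winQ, Bool.and_eq_true] at h
  obtain ⟨h1, h2⟩ := h
  obtain ⟨hc, hcM, hcB⟩ := freeQ_sound h1
  intro X hX
  have hl := lineOK_owns (lineQ_sound h2)
  have hM' : toF (M ||| (1 <<< c)) = insert (cellOf c) (toF M) := toF_add hc
  refine ⟨cellOf c, ?_, ?_, Or.inl ?_⟩
  · rw [cellOf_mem_toF hc, hcM]; simp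
  · intro hmem
    rcases Finset.mem_union.mp hmem with h' | h'
    · rw [cellOf_mem_toF hc, hcB] at h'; simp at h'
    · refine hX _ h' ?_
      rw [cellOf_mem_toF hc, Nat.one_shiftLeft, Nat.testBit_two_pow]; simp
  · rw [← hM']
    exact hl

/-- Reading state: the current chunk (with a top sentinel `1`) and the remaining chunks. -/
abbrev St := ℕ × List ℕ

/-- Read one byte token from the stream. -/
def rd (st : St) : ℕ × St :=
  bif Nat.beq st.1 1 then
    (match st.2 with
     | [] => (0, (0, []))
     | h :: t => (Nat.mod h 256, (Nat.div h 256, t)))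
  else (Nat.mod st.1 256, (Nat.div st.1 256, st.2))

/-- The loop over Breaker replies with explicitly listed cells. -/
def kidsLoop (g : ℕ → ℕ → St → Option (ℕ × St)) : ℕ → ℕ → ℕ → St → ℕ → ℕ → Option (ℕ × ℕ × St)
  | 0, _, _, st, A, Zall => some (A, Zall, st)
  | k + 1, M', B, st, A, Zall =>
    match rd st with
    | (s, st1) =>
      match g M' (Nat.lor B (Nat.shiftLeft 1 s)) st1 with
      | none => none
      | some (Zj, st2) => kidsLoop g k M' B st2 (Nat.land A Zj) (Nat.lor Zall Zj)

/-- All replies outside the occupied cells are handled. -/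
def doneQ (A M' B : ℕ) : Bool := Nat.beq (Nat.land A (Nat.lor M' B)) A

/-- The certificate checker. It returns the zone of the proof just read. -/
def chkN : ℕ → ℕ → ℕ → St → Option (ℕ × St)
  | 0, _, _, _ => none
  | f + 1, M, B, st =>
    match rd st with
    | (tag, st1) =>
      match rd st1 with
      | (c, st2) =>
        bif freeQ M B c then
          match tag with
          | 0 =>
            match rd st2 with
            | (corner, st3) =>
              match rd st3 with
              | (o, st4) =>
                bif winQ M B c corner o then some (Nat.shiftLeft 1 c, st4) else none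
          | 1 =>
            match rd st2 with
            | (k, st3) =>
              match chkN f (Nat.lor M (Nat.shiftLeft 1 c)) B st3 with
              | none => none
              | some (Z0, st4) =>
                match kidsLoop (chkN f) k (Nat.lor M (Nat.shiftLeft 1 c)) B st4 Z0 Z0 with
                | none => none
                | some (A, Zall, st5) =>
                  bif doneQ A (Nat.lor M (Nat.shiftLeft 1 c)) B then
                    some (Nat.lor (Nat.shiftLeft 1 c) Zall, st5)
                  else none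
          | 2 =>
            match rd st2 with
            | (r, st3) =>
              match rd st3 with
              | (corner, st4) =>
                match rd st4 with
                | (o, st5) =>
                  bif winQ (Nat.lor M (Nat.shiftLeft 1 c)) B r corner o then
                    match chkN f (Nat.lor M (Nat.shiftLeft 1 c))
                        (Nat.lor B (Nat.shiftLeft 1 r)) st5 with
                    | none => none
                    | some (Zc, st6) =>
                      bif doneQ (Nat.land (Nat.shiftLeft 1 r) Zc)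
                          (Nat.lor M (Nat.shiftLeft 1 c)) B then
                        some (Nat.lor (Nat.shiftLeft 1 c) (Nat.lor (Nat.shiftLeft 1 r) Zc), st6)
                      else none
                  else none
          | _ =>
            match rd st2 with
            | (t0, st3) =>
              match rd st3 with
              | (corner0, st4) =>
                match rd st4 with
                | (o0, st5) =>
                  match rd st5 with
                  | (t1, st6) =>
                    match rd st6 with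
                    | (corner1, st7) =>
                      match rd st7 with
                      | (o1, st8) =>
                        bif winQ (Nat.lor M (Nat.shiftLeft 1 c)) B t0 corner0 o0 &&
                            winQ (Nat.lor M (Nat.shiftLeft 1 c))
                              (Nat.lor B (Nat.shiftLeft 1 t0)) t1 corner1 o1 &&
                            doneQ (Nat.land (Nat.shiftLeft 1 t0) (Nat.shiftLeft 1 t1))
                              (Nat.lor M (Nat.shiftLeft 1 c)) B then
                          some (Nat.lor (Nat.shiftLeft 1 c)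
                            (Nat.lor (Nat.shiftLeft 1 t0) (Nat.shiftLeft 1 t1)), st8)
                        else none
        else none

theorem kidsLoop_sound {g : ℕ → ℕ → St → Option (ℕ × St)}
    (hg : ∀ M B st Z st', g M B st = some (Z, st') → ∃ d, ProvedIn d M B Z) :
    ∀ (k M' B : ℕ) (st : St) (A Z A' Z' : ℕ) (st' : St) (D : ℕ),
      Handles D M' B A Z → kidsLoop g k M' B st A Z = some (A', Z', st') →
      ∃ D', Handles D' M' B A' Z' := by
  intro k
  induction k with
  | zero =>
    intro M' B st A Z A' Z' st' D hH heq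
    simp only [kidsLoop, Option.some.injEq, Prod.mk.injEq] at heq
    obtain ⟨rfl, rfl, _⟩ := heq
    exact ⟨D, hH⟩
  | succ k ih =>
    intro M' B st A Z A' Z' st' D hH heq
    simp only [kidsLoop] at heq
    generalize hrd : rd st = p at heq
    obtain ⟨s, st1⟩ := p
    simp only at heq
    generalize hgv : g M' (Nat.lor B (Nat.shiftLeft 1 s)) st1 = q at heq
    cases q with
    | none => simp at heq
    | some q =>
      obtain ⟨Zj, st2⟩ := q
      simp only at heq
      obtain ⟨Dj, hDj⟩ := hg _ _ _ _ _ hgv
      exact ih _ _ _ _ _ _ _ _ _ (handles_step hH hDj) heq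

/-- Concluding a move from a full handling of the replies. -/
theorem conclude {D M B c A Zall : ℕ} (hfree : freeQ M B c = true)
    (hH : Handles D (M ||| (1 <<< c)) B A Zall)
    (hdone : doneQ A (M ||| (1 <<< c)) B = true) :
    ProvedIn (D + 1) M B ((1 <<< c) ||| Zall) := by
  obtain ⟨hc, hcM, hcB⟩ := freeQ_sound hfree
  have hM' := toF_add (m := M) hc
  have hcbit : (1 <<< c).testBit c = true := by
    rw [Nat.one_shiftLeft, Nat.testBit_two_pow]; simp
  have hA' : (A &&& ((M ||| (1 <<< c)) ||| B)) = A := Nat.eq_of_beq_eq_true hdone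
  have hAsub := toF_mono hA'
  intro X hX
  refine ⟨cellOf c, ?_, ?_, Or.inr ?_⟩
  · rw [cellOf_mem_toF hc, hcM]; simp
  · intro hmem
    rcases Finset.mem_union.mp hmem with h' | h'
    · rw [cellOf_mem_toF hc, hcB] at h'; simp at h'
    · refine hX _ h' ?_
      apply toF_subset_or_left
      rw [cellOf_mem_toF hc]
      exact hcbit
  · intro r hr1 hr2
    have hrA : r ∉ toF A := by
      intro hmem
      have h2 := hAsub hmem
      rw [mem_toF] at h2
      obtain ⟨b, hb, hb2, hb3⟩ := h2
      rw [Nat.testBit_or, Bool.or_eq_true] at hb2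
      rcases hb2 with h' | h'
      · apply hr1
        rw [← hM', ← hb3, cellOf_mem_toF hb]
        exact h'
      · apply hr2
        apply Finset.mem_union_left
        rw [← hb3, cellOf_mem_toF hb]
        exact h'
    have h3 := hH r X hrA (fun x hx h' => hX x hx (toF_subset_or_right _ _ h'))
    rw [hM'] at h3
    exact h3

theorem cond_some {α : Type} {b : Bool} {x y : α} (h : (bif b then some x else none) = some y) :
    b = true ∧ x = y := by
  cases b with
  | false => simp at h
  | true => simpa using h

/-- Soundness of the checker. -/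
theorem chkN_sound : ∀ (f M B : ℕ) (st : St) (Z : ℕ) (st' : St),
    chkN f M B st = some (Z, st') → ∃ d, ProvedIn d M B Z := by
  intro f
  induction f with
  | zero =>
    intro M B st Z st' h
    simp [chkN] at h
  | succ f ih =>
    intro M B st Z st' h
    simp only [chkN] at h
    generalize hrd1 : rd st = p1 at h
    obtain ⟨tag, st1⟩ := p1
    simp only at h
    generalize hrd2 : rd st1 = p2 at h
    obtain ⟨c, st2⟩ := p2
    simp only at h
    cases hfree : freeQ M B c with
    | false => simp [hfree] at h
    | true =>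
      simp only [hfree, cond_true] at h
      have hM2 : Nat.lor M (Nat.shiftLeft 1 c) = M ||| (1 <<< c) := rfl
      rw [hM2] at h
      match tag, h with
      | 0, h =>
        simp only at h
        generalize hrd3 : rd st2 = p3 at h
        obtain ⟨corner, st3⟩ := p3
        simp only at h
        generalize hrd4 : rd st3 = p4 at h
        obtain ⟨o, st4⟩ := p4
        simp only at h
        obtain ⟨hw, hxy⟩ := cond_some h
        obtain ⟨rfl, _⟩ := Prod.mk.inj hxy
        exact ⟨1, winQ_sound hw⟩
      | 1, h =>
        simp only at h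
        generalize hrd3 : rd st2 = p3 at h
        obtain ⟨k, st3⟩ := p3
        simp only at h
        generalize hk0 : chkN f (M ||| (1 <<< c)) B st3 = q0 at h
        cases q0 with
        | none => simp at h
        | some q0 =>
          obtain ⟨Z0, st4⟩ := q0
          simp only at h
          obtain ⟨D0, hD0⟩ := ih _ _ _ _ _ hk0
          generalize hk1 : kidsLoop (chkN f) k (M ||| (1 <<< c)) B st4 Z0 Z0 = q1 at h
          cases q1 with
          | none => simp at h
          | some q1 =>
            obtain ⟨A, Zall, st5⟩ := q1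
            simp only at h
            obtain ⟨D, hD⟩ := kidsLoop_sound ih k _ _ _ _ _ _ _ _ D0 (handles_of_proved hD0) hk1
            obtain ⟨hdone, hxy⟩ := cond_some h
            obtain ⟨rfl, _⟩ := Prod.mk.inj hxy
            exact ⟨D + 1, conclude hfree hD hdone⟩
      | 2, h =>
        simp only at h
        generalize hrd3 : rd st2 = p3 at h
        obtain ⟨r, st3⟩ := p3
        simp only at h
        generalize hrd4 : rd st3 = p4 at h
        obtain ⟨corner, st4⟩ := p4
        simp only at h
        generalize hrd5 : rd st4 = p5 at h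
        obtain ⟨o, st5⟩ := p5
        simp only at h
        cases hw : winQ (M ||| (1 <<< c)) B r corner o with
        | false => simp [hw] at h
        | true =>
          simp only [hw, cond_true] at h
          generalize hk0 : chkN f (M ||| (1 <<< c)) (Nat.lor B (Nat.shiftLeft 1 r)) st5 = q0 at h
          cases q0 with
          | none => simp at h
          | some q0 =>
            obtain ⟨Zc, st6⟩ := q0
            simp only at h
            obtain ⟨Dc, hDc⟩ := ih _ _ _ _ _ hk0
            obtain ⟨hdone, hxy⟩ := cond_some h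
            obtain ⟨rfl, _⟩ := Prod.mk.inj hxy
            exact ⟨_, conclude hfree (handles_step (handles_of_proved (winQ_sound hw)) hDc) hdone⟩
      | n + 3, h =>
        simp only at h
        generalize hrd3 : rd st2 = p3 at h
        obtain ⟨t0, st3⟩ := p3
        simp only at h
        generalize hrd4 : rd st3 = p4 at h
        obtain ⟨corner0, st4⟩ := p4
        simp only at h
        generalize hrd5 : rd st4 = p5 at h
        obtain ⟨o0, st5⟩ := p5
        simp only at h
        generalize hrd6 : rd st5 = p6 at h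
        obtain ⟨t1, st6⟩ := p6
        simp only at h
        generalize hrd7 : rd st6 = p7 at h
        obtain ⟨corner1, st7⟩ := p7
        simp only at h
        generalize hrd8 : rd st7 = p8 at h
        obtain ⟨o1, st8⟩ := p8
        simp only at h
        obtain ⟨hw, hxy⟩ := cond_some h
        obtain ⟨rfl, _⟩ := Prod.mk.inj hxy
        simp only [Bool.and_eq_true] at hw
        obtain ⟨⟨hw0, hw1⟩, hdone⟩ := hw
        exact ⟨_, conclude hfree (handles_step (handles_of_proved (winQ_sound hw0))
          (winQ_sound hw1)) hdone⟩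

/-- A successful run of the checker with a stated zone gives a proved position. -/
theorem proved_of_chk {f M B : ℕ} {st : St} {Z : ℕ}
    (h : (chkN f M B st).map Prod.fst = some Z) : ∃ d, ProvedIn d M B Z := by
  cases hc : chkN f M B st with
  | none => simp [hc] at h
  | some p =>
    obtain ⟨Z', st'⟩ := p
    simp [hc] at h
    subst h
    exact chkN_sound _ _ _ _ _ _ hc

end Vale.Agent.Lib.P062
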