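import Vale.Agent.Lib.P062.Sound

/-!
Symmetry transport and the assembly of the root position from finitely many replies.
-/

namespace Vale.Agent.Lib.P062

theorem orient_add (s : Bool) (a b : ℤ) (p q : Cell) :
    orient s a b (p + q) = orient s a b p + orient s a b q := by
  cases s <;> ext <;> simp [orient, mul_add]

theorem orient_comp (s : Bool) (a b : ℤ) (s' : Bool) (a' b' : ℤ) (p : Cell) :
    orient s a b (orient s' a' b' p) =
      if s then orient (!s') (a * b') (b * a') p else orient s' (a * a') (b * b') p := by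
  cases s <;> cases s' <;> ext <;> simp [orient, mul_assoc]

theorem sign_mul {a b : ℤ} (ha : a = 1 ∨ a = -1) (hb : b = 1 ∨ b = -1) : a * b = 1 ∨ a * b = -1 := by
  rcases ha with rfl | rfl <;> rcases hb with rfl | rfl <;> simp

/-- A symmetry of the board fixing the origin. -/
structure Sym where
  s : Bool
  a : ℤ
  b : ℤ
  ha : a = 1 ∨ a = -1
  hb : b = 1 ∨ b = -1

/-- The action of a symmetry. -/
def Sym.act (g : Sym) (p : Cell) : Cell := orient g.s g.a g.b p

/-- The inverse symmetry. -/
def Sym.inv (g : Sym) : Sym :=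
  if h : g.s = true then ⟨true, g.b, g.a, g.hb, g.ha⟩ else ⟨false, g.a, g.b, g.ha, g.hb⟩

theorem sign_sq {a : ℤ} (ha : a = 1 ∨ a = -1) : a * a = 1 := by
  rcases ha with rfl | rfl <;> simp

theorem Sym.act_inv (g : Sym) (p : Cell) : g.act (g.inv.act p) = p := by
  obtain ⟨s, a, b, ha, hb⟩ := g
  cases s <;> ext <;>
    simp [Sym.act, Sym.inv, orient, ← mul_assoc, sign_sq ha, sign_sq hb]

theorem Sym.inv_act (g : Sym) (p : Cell) : g.inv.act (g.act p) = p := by
  obtain ⟨s, a, b, ha, hb⟩ := g
  cases s <;> ext <;>
    simp [Sym.act, Sym.inv, orient, ← mul_assoc, sign_sq ha, sign_sq hb]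

theorem Sym.act_inj (g : Sym) : Function.Injective g.act := by
  intro p q h
  have := congrArg g.inv.act h
  rwa [Sym.inv_act, Sym.inv_act] at this

theorem OwnsCopy.sym {A : Set Cell} (g : Sym) (h : OwnsCopy A) : OwnsCopy (g.act '' A) := by
  obtain ⟨t, s, sx, sy, hx, hy, hp⟩ := h
  obtain ⟨gs, a, b, ha, hb⟩ := g
  cases gs with
  | false =>
    refine ⟨orient false a b t, s, a * sx, b * sy, sign_mul ha hx, sign_mul hb hy, ?_⟩
    intro p hp'
    refine ⟨_, hp p hp', ?_⟩
    simp [Sym.act, orient_add, orient_comp]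
  | true =>
    refine ⟨orient true a b t, !s, a * sy, b * sx, sign_mul ha hy, sign_mul hb hx, ?_⟩
    intro p hp'
    refine ⟨_, hp p hp', ?_⟩
    simp [Sym.act, orient_add, orient_comp]

/-- Forcing is invariant under the symmetries of the board. -/
theorem ForcesIn.sym (g : Sym) : ∀ {d : ℕ} {M B : Finset Cell}, ForcesIn d M B →
    ForcesIn d (M.image g.act) (B.image g.act)
  | 0, _, _, h => h.elim
  | d + 1, M, B, h => by
    obtain ⟨c, hcM, hcB, hwin⟩ := h
    refine ⟨g.act c, ?_, ?_, ?_⟩
    · intro hmem
      obtain ⟨x, hx, hxe⟩ := Finset.mem_image.mp hmem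
      rw [g.act_inj hxe] at hx
      exact hcM hx
    · intro hmem
      obtain ⟨x, hx, hxe⟩ := Finset.mem_image.mp hmem
      rw [g.act_inj hxe] at hx
      exact hcB hx
    · rcases hwin with hw | hw
      · left
        have := hw.sym g
        rw [← Finset.image_insert]
        convert this using 1
        simp [Set.image_insert_eq]
      · right
        intro r hr1 hr2
        have hr1' : g.inv.act r ∉ insert c M := by
          intro hmem
          apply hr1
          rw [← Finset.image_insert]
          exact Finset.mem_image.mpr ⟨_, hmem, g.act_inv r⟩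
        have hr2' : g.inv.act r ∉ B := by
          intro hmem
          exact hr2 (Finset.mem_image.mpr ⟨_, hmem, g.act_inv r⟩)
        have := ForcesIn.sym g (hw _ hr1' hr2')
        rw [Finset.image_insert, Finset.image_insert, g.act_inv] at this
        exact this

/-- The action of the orientation `o` on window bits. -/
def gbit (o b : ℕ) : ℕ :=
  match o with
  | 0 => b % 15 + 15 * (b / 15)
  | 1 => (14 - b % 15) + 15 * (b / 15)
  | 2 => b % 15 + 15 * (14 - b / 15)
  | 3 => (14 - b % 15) + 15 * (14 - b / 15)
  | 4 => b / 15 + 15 * (b % 15)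
  | 5 => (14 - b / 15) + 15 * (b % 15)
  | 6 => b / 15 + 15 * (14 - b % 15)
  | _ => (14 - b / 15) + 15 * (14 - b % 15)

/-- The symmetry of orientation `o`. -/
def symOf (o : ℕ) : Sym :=
  match o with
  | 0 => ⟨false, 1, 1, by simp, by simp⟩
  | 1 => ⟨false, -1, 1, by simp, by simp⟩
  | 2 => ⟨false, 1, -1, by simp, by simp⟩
  | 3 => ⟨false, -1, -1, by simp, by simp⟩
  | 4 => ⟨true, 1, 1, by simp, by simp⟩
  | 5 => ⟨true, -1, 1, by simp, by simp⟩
  | 6 => ⟨true, 1, -1, by simp, by simp⟩
  | _ => ⟨true, -1, -1, by simp, by simp⟩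

theorem gbit_lt {o b : ℕ} (hb : b < 225) : gbit o b < 225 := by
  have h1 : b % 15 < 15 := Nat.mod_lt _ (by norm_num)
  have h2 : b / 15 < 15 := by omega
  match o with
  | 0 => simp only [gbit]; omega
  | 1 => simp only [gbit]; omega
  | 2 => simp only [gbit]; omega
  | 3 => simp only [gbit]; omega
  | 4 => simp only [gbit]; omega
  | 5 => simp only [gbit]; omega
  | 6 => simp only [gbit]; omega
  | _ + 7 => simp only [gbit]; omega

theorem cellOf_gbit {o b : ℕ} (hb : b < 225) : cellOf (gbit o b) = (symOf o).act (cellOf b) := by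
  have h1 : b % 15 < 15 := Nat.mod_lt _ (by norm_num)
  have h2 : b / 15 < 15 := by omega
  match o with
  | 0 =>
    show cellOf (_ + 15 * _) = _
    rw [cellOf_xy h1 h2]
    ext <;> simp [Sym.act, symOf, orient, cellOf]
  | 1 =>
    show cellOf (_ + 15 * _) = _
    rw [cellOf_xy (by omega) h2]
    ext <;> simp [Sym.act, symOf, orient, cellOf] <;> omega
  | 2 =>
    show cellOf (_ + 15 * _) = _
    rw [cellOf_xy h1 (by omega)]
    ext <;> simp [Sym.act, symOf, orient, cellOf] <;> omega
  | 3 =>
    show cellOf (_ + 15 * _) = _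
    rw [cellOf_xy (by omega) (by omega)]
    ext <;> simp [Sym.act, symOf, orient, cellOf] <;> omega
  | 4 =>
    show cellOf (_ + 15 * _) = _
    rw [cellOf_xy h2 h1]
    ext <;> simp [Sym.act, symOf, orient, cellOf]
  | 5 =>
    show cellOf (_ + 15 * _) = _
    rw [cellOf_xy (by omega) h1]
    ext <;> simp [Sym.act, symOf, orient, cellOf] <;> omega
  | 6 =>
    show cellOf (_ + 15 * _) = _
    rw [cellOf_xy h2 (by omega)]
    ext <;> simp [Sym.act, symOf, orient, cellOf] <;> omega
  | _ + 7 =>
    show cellOf (_ + 15 * _) = _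
    rw [cellOf_xy (by omega) (by omega)]
    ext <;> simp [Sym.act, symOf, orient, cellOf] <;> omega

/-- The origin as a window bit. -/
def centerBit : ℕ := 112

theorem cellOf_center : cellOf centerBit = (0, 0) := by
  simp [cellOf, centerBit]

theorem sym_center (g : Sym) : g.act (0, 0) = (0, 0) := by
  obtain ⟨s, a, b, _, _⟩ := g
  cases s <;> simp [Sym.act, orient]

theorem toF_center : toF (1 <<< centerBit) = {((0, 0) : Cell)} := by
  have h := toF_add (m := 0) (c := centerBit) (by unfold centerBit; omega)
  have h0 : toF 0 = ∅ := by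
    ext x
    simp [mem_toF]
  rw [Nat.zero_or, h0, cellOf_center] at h
  simpa using h

theorem exists_uniform {α : Type} {P : ℕ → α → Prop} (hmono : ∀ {d d' a}, P d a → d ≤ d' → P d' a)
    (l : List α) (h : ∀ a ∈ l, ∃ d, P d a) : ∃ D, ∀ a ∈ l, P D a := by
  induction l with
  | nil => exact ⟨0, by simp⟩
  | cons a l ih =>
    obtain ⟨d, hd⟩ := h a (by simp)
    obtain ⟨D, hD⟩ := ih (fun b hb => h b (List.mem_cons_of_mem a hb))
    refine ⟨max d D, ?_⟩
    intro b hb
    rcases List.mem_cons.mp hb with rfl | hb
    · exact hmono hd (le_max_left _ _)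
    · exact hmono (hD b hb) (le_max_right _ _)

/-- A class: a reply bit and the zone of its proof. -/
def coverOK (classes : List (ℕ × ℕ)) : Bool :=
  classes ≠ [] ∧ (List.range 225).all (fun b => b == centerBit ||
    classes.any (fun c => (List.range 8).any (fun o =>
      let b' := gbit o b; !(c.2.testBit b') || b' == c.1)))

theorem forces_of_classes (classes : List (ℕ × ℕ))
    (hp : ∀ c ∈ classes, ∃ d, ProvedIn d (1 <<< centerBit) (1 <<< c.1) c.2)
    (hr : ∀ c ∈ classes, c.1 < 225)
    (hcov : coverOK classes = true) : ∃ d, ForcesIn d ∅ ∅ := by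
  obtain ⟨D, hD⟩ := exists_uniform (P := fun d (c : ℕ × ℕ) =>
    ProvedIn d (1 <<< centerBit) (1 <<< c.1) c.2) (fun h hd => h.mono hd) classes hp
  simp only [coverOK, Bool.and_eq_true, decide_eq_true_eq, List.all_eq_true, List.mem_range,
    Bool.or_eq_true, beq_iff_eq, List.any_eq_true, Bool.not_eq_true'] at hcov
  obtain ⟨hne, hcov⟩ := hcov
  have key : ∀ r : Cell, r ≠ (0, 0) → ForcesIn D {(0, 0)} {r} := by
    intro r hr0
    -- find class and symmetry
    have hex : ∃ c ∈ classes, ∃ o, (r ∉ (toF c.2).image (symOf o).inv.act) ∨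
        r = (symOf o).inv.act (cellOf c.1) := by
      by_cases hwin : ∃ b, b < 225 ∧ cellOf b = r
      · obtain ⟨b, hb, rfl⟩ := hwin
        have hbc : b ≠ centerBit := by
          rintro rfl
          exact hr0 cellOf_center
        rcases hcov b hb with h | ⟨c, hc, o, _, ho⟩
        · exact absurd h hbc
        · refine ⟨c, hc, o, ?_⟩
          rcases ho with ho | ho
          · left
            intro hmem
            obtain ⟨x, hx, hxe⟩ := Finset.mem_image.mp hmem
            have h3 : x = cellOf (gbit o b) := by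
              rw [cellOf_gbit hb, ← hxe, Sym.act_inv]
            rw [h3, cellOf_mem_toF (gbit_lt hb), ho] at hx
            simp at hx
          · right
            rw [← ho, cellOf_gbit hb, Sym.inv_act]
      · obtain ⟨c, hc⟩ := List.exists_mem_of_ne_nil classes hne
        refine ⟨c, hc, 0, Or.inl ?_⟩
        intro hmem
        obtain ⟨x, hx, hxe⟩ := Finset.mem_image.mp hmem
        obtain ⟨b, hb, _, hbe⟩ := mem_toF.mp hx
        apply hwin
        refine ⟨b, hb, ?_⟩
        have hid : (symOf 0).inv.act x = x := by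
          simp [Sym.inv, symOf, Sym.act, orient]
        rw [← hxe, hid, hbe]
    obtain ⟨c, hc, o, ho⟩ := hex
    have hmask := hD c hc
    set g := (symOf o).inv with hg
    rcases ho with ho | ho
    · -- the reply is outside the zone
      have h1 := hmask {g.inv.act r} (by
        intro x hx hxZ
        rw [Finset.mem_singleton] at hx
        apply ho
        refine Finset.mem_image.mpr ⟨x, hxZ, ?_⟩
        rw [hx, Sym.act_inv])
      have h2 := ForcesIn.sym g h1
      rw [toF_center, Finset.image_singleton, sym_center] at h2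
      refine h2.anti_B ?_
      intro y hy
      rw [Finset.mem_singleton] at hy
      rw [hy]
      refine Finset.mem_image.mpr ⟨g.inv.act r, ?_, g.act_inv r⟩
      exact Finset.mem_union_right _ (Finset.mem_singleton_self _)
    · have h1 := hmask ∅ (by simp)
      have h2 := ForcesIn.sym g h1
      rw [toF_center, Finset.image_singleton, sym_center] at h2
      refine h2.anti_B ?_
      intro y hy
      rw [Finset.mem_singleton] at hy
      rw [hy, ho]
      refine Finset.mem_image.mpr ⟨cellOf c.1, ?_, rfl⟩
      apply Finset.mem_union_left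
      rw [cellOf_mem_toF (hr c hc), Nat.one_shiftLeft, Nat.testBit_two_pow]
      simp
  refine ⟨D + 1, (0, 0), by simp, by simp, Or.inr ?_⟩
  intro r hr1 _
  have hr0 : r ≠ (0, 0) := fun h => hr1 (by rw [h]; simp)
  have := key r hr0
  simpa using this

/-- The final statement from the classes. -/
theorem strategy_of_classes (classes : List (ℕ × ℕ))
    (hp : ∀ c ∈ classes, ∃ d, ProvedIn d (1 <<< centerBit) (1 <<< c.1) c.2)
    (hr : ∀ c ∈ classes, c.1 < 225)
    (hcov : coverOK classes = true) : MakerHasWinningStrategy := by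
  obtain ⟨d, hd⟩ := forces_of_classes classes hp hr hcov
  exact strategy_of_forces hd

end Vale.Agent.Lib.P062
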